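import Mathlib
import Vale.Agent.Lib.P002.Surf.Rigid

set_option linter.unusedSectionVars false
set_option linter.unusedVariables false
set_option linter.unusedSimpArgs false
set_option linter.unnecessarySeqFocus false

namespace Vale.Agent.Lib.P002.Surf

open Matrix

variable {R : Type*} [CommRing R] {r : ℕ}

/-- Successive approximations of the matrix of eigenvectors. -/
def dLev (B : Matrix (Fin r) (Fin r) R) (iv : Fin r → Fin r → R) : ℕ → Fin r → Fin r → R
  | 0, i, j => if i = j then 1 else 0
  | k + 1, i, j =>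
      if i < j then (∑ l, if i < l then B i l * dLev B iv k l j else 0) * iv j i
      else if i = j then 1 else 0

lemma dLev_lt (B : Matrix (Fin r) (Fin r) R) (iv : Fin r → Fin r → R) (k : ℕ) (i j : Fin r)
    (h : j < i) : dLev B iv k i j = 0 := by
  cases k with
  | zero => simp [dLev, ne_of_gt h]
  | succ k => simp [dLev, not_lt.mpr h.le, ne_of_gt h]

lemma dLev_self (B : Matrix (Fin r) (Fin r) R) (iv : Fin r → Fin r → R) (k : ℕ) (i : Fin r) :
    dLev B iv k i i = 1 := by
  cases k with
  | zero => simp [dLev]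
  | succ k => simp [dLev]

lemma dLev_stable (B : Matrix (Fin r) (Fin r) R) (iv : Fin r → Fin r → R) (k : ℕ) :
    ∀ i j : Fin r, j.val ≤ i.val + k → dLev B iv (k + 1) i j = dLev B iv k i j := by
  induction k with
  | zero =>
    intro i j h
    have h1 : ¬ i < j := by
      intro h2
      have : i.val < j.val := h2
      omega
    simp [dLev, h1]
  | succ k ih =>
    intro i j h
    have e : ∀ m, dLev B iv (m + 1) i j =
        if i < j then (∑ l, if i < l then B i l * dLev B iv m l j else 0) * iv j i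
        else if i = j then 1 else 0 := fun _ => rfl
    rw [e (k + 1), e k]
    by_cases h1 : i < j
    · simp only [h1, if_true]
      congr 1
      apply Finset.sum_congr rfl
      intro l _
      by_cases h2 : i < l
      · have h3 : i.val < l.val := h2
        simp only [h2, if_true]
        rw [ih l j (by omega)]
      · simp [h2]
    · simp [h1]

/-- The matrix of eigenvectors of an upper triangular matrix with simple spectrum. -/
theorem exists_diag_matrix (B : Matrix (Fin r) (Fin r) R) (hB : UT B) (q : Fin r → R)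
    (hq : ∀ i, B i i = q i) (iv : Fin r → Fin r → R)
    (hiv : ∀ i j, i ≠ j → iv j i * (q j - q i) = 1) :
    ∃ d : Matrix (Fin r) (Fin r) R, UT d ∧ (∀ i, d i i = 1) ∧
      B * d = d * Matrix.diagonal q := by
  let d : Matrix (Fin r) (Fin r) R := Matrix.of fun i j => dLev B iv r i j
  have hd0 : ∀ i j, d i j = dLev B iv r i j := fun _ _ => rfl
  have hlt : ∀ i j : Fin r, j < i → d i j = 0 := fun i j h => dLev_lt B iv r i j h
  have hself : ∀ i, d i i = 1 := fun i => dLev_self B iv r i
  have hrec : ∀ i j : Fin r, i < j →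
      d i j = (∑ l, if i < l then B i l * d l j else 0) * iv j i := by
    intro i j h
    have h1 : j.val ≤ i.val + r := by have := j.isLt; omega
    rw [hd0, ← dLev_stable B iv r i j h1]
    simp only [dLev, h, if_true]
    rfl
  refine ⟨d, fun i j h => hlt i j h, hself, ?_⟩
  ext i j
  rw [Matrix.mul_diagonal, Matrix.mul_apply]
  have hsplit : ∑ l, B i l * d l j =
      (∑ l, if i < l then B i l * d l j else 0) + q i * d i j := by
    have h1 : ∀ l, B i l * d l j =
        (if i < l then B i l * d l j else 0) + (if l = i then q i * d i j else 0) := by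
      intro l
      by_cases h2 : i < l
      · have h3 : l ≠ i := ne_of_gt h2
        simp [h2, h3]
      · by_cases h3 : l = i
        · subst h3
          simp [hq]
        · have h4 : l < i := lt_of_le_of_ne (not_lt.mp h2) h3
          simp [h2, h3, hB i l h4]
    rw [Finset.sum_congr rfl fun l _ => h1 l, Finset.sum_add_distrib]
    simp
  rw [hsplit]
  by_cases hij : i < j
  · have h1 := hiv i j (ne_of_lt hij)
    have h2 := hrec i j hij
    have h3 : (∑ l, if i < l then B i l * d l j else 0) = d i j * (q j - q i) := by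
      rw [h2]
      linear_combination (-(∑ l, if i < l then B i l * d l j else 0)) * h1
    rw [h3]
    ring
  · have h0 : (∑ l, if i < l then B i l * d l j else 0) = 0 := by
      apply Finset.sum_eq_zero
      intro l _
      by_cases h2 : i < l
      · have h3 : j < l := lt_of_le_of_lt (not_lt.mp hij) h2
        simp [h2, hlt l j h3]
      · simp [h2]
    rw [h0, zero_add]
    by_cases hij2 : i = j
    · subst hij2
      ring
    · have h4 : j < i := lt_of_le_of_ne (not_lt.mp hij) (fun h => hij2 h.symm)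
      simp [hlt i j h4]

/-- The eigenvector matrix as an invertible matrix. -/
theorem exists_diagonalizer (B : Bp R r) (q : Fin r → Rˣ) (hq : dg B = q)
    (hdiff : ∀ i j, i ≠ j → IsUnit ((q j : R) - q i)) :
    ∃ d : GLr R r, d ∈ Up R r ∧ B.1 * d = d * tor q := by
  classical
  let iv : Fin r → Fin r → R := fun j i =>
    if h : i ≠ j then ((hdiff i j h).unit⁻¹ : Rˣ) else 0
  have hiv : ∀ i j, i ≠ j → iv j i * ((q j : R) - q i) = 1 := by
    intro i j h
    simp only [iv, dif_pos h]
    exact (hdiff i j h).val_inv_mul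
  have hq' : ∀ i, B.1.1 i i = q i := by
    intro i
    rw [← hq]
    rfl
  obtain ⟨d, hd1, hd2, hd3⟩ := exists_diag_matrix B.1.1 B.2 (fun i => (q i : R)) hq' iv hiv
  have hdet : d.det = 1 := by
    rw [det_of_UT hd1]
    simp [hd2]
  refine ⟨Matrix.nonsingInvUnit d (by rw [hdet]; exact isUnit_one), ⟨hd1, hd2⟩, ?_⟩
  apply Units.ext
  exact hd3

/-- A choice of the eigenvector matrix. -/
noncomputable def diagz (B : Bp R r) (q : Fin r → Rˣ) (hq : dg B = q)
    (hdiff : ∀ i j, i ≠ j → IsUnit ((q j : R) - q i)) : GLr R r :=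
  (exists_diagonalizer B q hq hdiff).choose

lemma diagz_mem (B : Bp R r) (q : Fin r → Rˣ) (hq : dg B = q)
    (hdiff : ∀ i j, i ≠ j → IsUnit ((q j : R) - q i)) : diagz B q hq hdiff ∈ Up R r :=
  (exists_diagonalizer B q hq hdiff).choose_spec.1

lemma diagz_rel (B : Bp R r) (q : Fin r → Rˣ) (hq : dg B = q)
    (hdiff : ∀ i j, i ≠ j → IsUnit ((q j : R) - q i)) :
    B.1 * diagz B q hq hdiff = diagz B q hq hdiff * tor q :=
  (exists_diagonalizer B q hq hdiff).choose_spec.2

section Cj

variable (B B' : Bp R r) (q : Fin r → Rˣ) (hq : dg B = q) (hq' : dg B' = q)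
  (hdiff : ∀ i j, i ≠ j → IsUnit ((q j : R) - q i)) (ζ : Fin r → Rˣ)

/-- The conjugator from `B'` to `B` with prescribed diagonal. -/
noncomputable def Cj : GLr R r :=
  diagz B q hq hdiff * tor ζ * (diagz B' q hq' hdiff)⁻¹

lemma tor_comm (a b : Fin r → Rˣ) : tor a * tor b = tor b * tor a := by
  rw [← tor_mul, ← tor_mul, mul_comm]

lemma Cj_rel : Cj B B' q hq hq' hdiff ζ * B'.1 = B.1 * Cj B B' q hq hq' hdiff ζ := by
  simp only [Cj]
  have h1 := diagz_rel B q hq hdiff
  have h2 := diagz_rel B' q hq' hdiff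
  have h3 : (diagz B' q hq' hdiff)⁻¹ * B'.1 = tor q * (diagz B' q hq' hdiff)⁻¹ := by
    rw [inv_mul_eq_iff_eq_mul, ← mul_assoc, ← h2]
    group
  calc diagz B q hq hdiff * tor ζ * (diagz B' q hq' hdiff)⁻¹ * B'.1
      = diagz B q hq hdiff * tor ζ * ((diagz B' q hq' hdiff)⁻¹ * B'.1) := by group
    _ = diagz B q hq hdiff * (tor ζ * tor q) * (diagz B' q hq' hdiff)⁻¹ := by rw [h3]; group
    _ = (diagz B q hq hdiff * tor q) * tor ζ * (diagz B' q hq' hdiff)⁻¹ := by
        rw [tor_comm]; group
    _ = _ := by rw [← h1]; group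

lemma Cj_mem : Cj B B' q hq hq' hdiff ζ ∈ Bp R r :=
  mul_mem (mul_mem (Up_le_Bp (diagz_mem B q hq hdiff)) (tor_mem ζ))
    (inv_mem (Up_le_Bp (diagz_mem B' q hq' hdiff)))

lemma dg_Cj : dg ⟨Cj B B' q hq hq' hdiff ζ, Cj_mem B B' q hq hq' hdiff ζ⟩ = ζ := by
  have h : (⟨Cj B B' q hq hq' hdiff ζ, Cj_mem B B' q hq hq' hdiff ζ⟩ : Bp R r) =
      ⟨diagz B q hq hdiff, Up_le_Bp (diagz_mem B q hq hdiff)⟩ * torB ζ *
        (⟨diagz B' q hq' hdiff, Up_le_Bp (diagz_mem B' q hq' hdiff)⟩ : Bp R r)⁻¹ := rfl
  rw [h, dg_mul, dg_mul, dg_inv, dg_torB]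
  have h1 : ∀ {g : GLr R r} (hg : g ∈ Up R r), dg ⟨g, Up_le_Bp hg⟩ = 1 := by
    intro g hg
    funext i
    apply Units.ext
    exact hg.2 i
  rw [h1 (diagz_mem B q hq hdiff), h1 (diagz_mem B' q hq' hdiff)]
  simp

lemma Cj_inv_rel :
    (Cj B B' q hq hq' hdiff ζ)⁻¹ * B.1 = B'.1 * (Cj B B' q hq hq' hdiff ζ)⁻¹ := by
  have h := Cj_rel B B' q hq hq' hdiff ζ
  generalize Cj B B' q hq hq' hdiff ζ = C at h
  have h2 : B.1 = C * B'.1 * C⁻¹ := by rw [h]; group
  rw [h2]
  group

end Cj

/-! ### Integrality -/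

section int

variable (O : Subring ℂ) (y : ℂ) (hy : y ∈ O)

/-- The multiples of a power of `y`. -/
def Vv (e : ℕ) (z : ℂ) : Prop := ∃ w ∈ O, z = y ^ e * w

include hy

lemma Vv_mono {e e' : ℕ} (h : e ≤ e') {z : ℂ} (hz : Vv O y e' z) : Vv O y e z := by
  obtain ⟨w, hw, rfl⟩ := hz
  refine ⟨y ^ (e' - e) * w, O.mul_mem (pow_mem hy _) hw, ?_⟩
  rw [← mul_assoc, ← pow_add]
  congr 2
  omega

omit hy in
lemma Vv_add {e : ℕ} {z z' : ℂ} (hz : Vv O y e z) (hz' : Vv O y e z') : Vv O y e (z + z') := by
  obtain ⟨w, hw, rfl⟩ := hz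
  obtain ⟨w', hw', rfl⟩ := hz'
  exact ⟨w + w', O.add_mem hw hw', by ring⟩

omit hy in
lemma Vv_neg {e : ℕ} {z : ℂ} (hz : Vv O y e z) : Vv O y e (-z) := by
  obtain ⟨w, hw, rfl⟩ := hz
  exact ⟨-w, O.neg_mem hw, by ring⟩

omit hy in
lemma Vv_zero (e : ℕ) : Vv O y e 0 := ⟨0, O.zero_mem, by simp⟩

omit hy in
lemma Vv_mul {e : ℕ} {z o : ℂ} (hz : Vv O y e z) (ho : o ∈ O) : Vv O y e (z * o) := by
  obtain ⟨w, hw, rfl⟩ := hz
  exact ⟨w * o, O.mul_mem hw ho, by ring⟩

omit hy in
lemma Vv_mul' {e : ℕ} {z o : ℂ} (hz : Vv O y e z) (ho : o ∈ O) : Vv O y e (o * z) := by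
  rw [mul_comm]
  exact Vv_mul O y hz ho

omit hy in
lemma Vv_sum {e : ℕ} {ι : Type*} (s : Finset ι) (f : ι → ℂ) (h : ∀ i ∈ s, Vv O y e (f i)) :
    Vv O y e (∑ i ∈ s, f i) :=
  Finset.sum_induction f (Vv O y e) (fun _ _ => Vv_add O y) (Vv_zero O y e) h

/-- Entries of an intertwiner of two congruent triangular matrices are integers. -/
theorem entries_int (K : ℕ) (hK : r ≤ K)
    (X B B' : Matrix (Fin r) (Fin r) ℂ) (hX : UT X) (hB : UT B) (hB' : UT B') (q : Fin r → ℂ)
    (h1 : ∀ i, B i i = q i) (h2 : ∀ i, B' i i = q i)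
    (hBO : ∀ i j, B i j ∈ O) (hBO' : ∀ i j, B' i j ∈ O)
    (hdiff : ∀ i j, i ≠ j → q j - q i ≠ 0 ∧ ∃ w ∈ O, y = (q j - q i) * w)
    (hXO : ∀ i, X i i ∈ O) (hXd : ∀ i j, Vv O y K (X j j - X i i))
    (hc : ∀ i j, Vv O y K (B i j - B' i j))
    (heq : X * B' = B * X) : ∀ i j, X i j ∈ O := by
  have key : ∀ n, ∀ i j : Fin r, i < j → j.val - i.val ≤ n →
      Vv O y (K - (j.val - i.val)) (X i j) := by
    intro n
    induction n with
    | zero =>
      intro i j hij h
      have : i.val < j.val := hij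
      omega
    | succ n ih =>
      intro i j hij hn
      have hij' : i.val < j.val := hij
      set d := j.val - i.val with hd
      have hdK : d ≤ K := by have := j.isLt; omega
      have hd1 : 1 ≤ d := by omega
      -- the terms
      let T : Fin r → ℂ := fun l => X i l * B' l j - B i l * X l j
      have hT0 : ∑ l, T l = 0 := by
        have := congrFun (congrFun heq i) j
        rw [Matrix.mul_apply, Matrix.mul_apply] at this
        simp only [T, Finset.sum_sub_distrib]
        rw [this, sub_self]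
      have hTo : ∀ l ∈ (Finset.univ.erase i).erase j, Vv O y (K - d + 1) (T l) := by
        intro l hl
        have hl1 : l ≠ j := (Finset.mem_erase.mp hl).1
        have hl2 : l ≠ i := (Finset.mem_erase.mp (Finset.mem_erase.mp hl).2).1
        by_cases h3 : l < i
        · simp only [T]
          rw [hX i l h3, hB i l h3]
          simpa using Vv_zero O y _
        by_cases h4 : j < l
        · simp only [T]
          rw [hB' l j h4, hX l j h4]
          simpa using Vv_zero O y _
        have h5 : i < l := lt_of_le_of_ne (not_lt.mp h3) (fun h => hl2 h.symm)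
        have h6 : l < j := lt_of_le_of_ne (not_lt.mp h4) hl1
        have h5' : i.val < l.val := h5
        have h6' : l.val < j.val := h6
        have a1 := ih i l h5 (by omega)
        have a2 := ih l j h6 (by omega)
        have a1' := Vv_mono O y hy (e := K - d + 1) (by omega) a1
        have a2' := Vv_mono O y hy (e := K - d + 1) (by omega) a2
        simp only [T, sub_eq_add_neg]
        exact Vv_add O y (Vv_mul O y a1' (hBO' _ _)) (Vv_neg O y (Vv_mul' O y a2' (hBO _ _)))
      have hsum : T i + (T j + ∑ l ∈ (Finset.univ.erase i).erase j, T l) = 0 := by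
        have hj : j ∈ Finset.univ.erase i := Finset.mem_erase.mpr ⟨ne_of_gt hij, Finset.mem_univ _⟩
        rw [Finset.add_sum_erase _ _ hj, Finset.add_sum_erase _ _ (Finset.mem_univ i)]
        exact hT0
      have hTi : T i = X i i * B' i j - q i * X i j := by
        simp only [T, h1]
      have hTj : T j = X i j * q j - B i j * X j j := by
        simp only [T, h2]
      have hmain : (q j - q i) * X i j = (B i j - B' i j) * X j j + B' i j * (X j j - X i i) -
          ∑ l ∈ (Finset.univ.erase i).erase j, T l := by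
        rw [hTi, hTj] at hsum
        linear_combination hsum
      have hV : Vv O y (K - d + 1) ((q j - q i) * X i j) := by
        rw [hmain, sub_eq_add_neg]
        apply Vv_add
        · apply Vv_add
          · exact Vv_mul O y (Vv_mono O y hy (by omega) (hc i j)) (hXO j)
          · exact Vv_mul' O y (Vv_mono O y hy (by omega) (hXd i j)) (hBO' _ _)
        · exact Vv_neg O y (Vv_sum O y _ _ hTo)
      obtain ⟨w, hw, hw2⟩ := hV
      obtain ⟨hne, w0, hw0, hw1⟩ := hdiff i j (ne_of_lt hij)
      refine ⟨w0 * w, O.mul_mem hw0 hw, ?_⟩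
      apply mul_left_cancel₀ hne
      rw [hw2, pow_succ]
      have h7 : y ^ (K - d) * y * w = y ^ (K - d) * ((q j - q i) * w0) * w := by rw [← hw1]
      rw [h7]
      ring
  intro i j
  rcases lt_trichotomy i j with h | h | h
  · obtain ⟨w, hw, hw2⟩ := key r i j h (by have := j.isLt; omega)
    rw [hw2]
    exact O.mul_mem (pow_mem hy _) hw
  · subst h
    exact hXO i
  · rw [hX i j h]
    exact O.zero_mem

end int

end Vale.Agent.Lib.P002.Surf
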