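import Mathlib
import Vale.Agent.Lib.P002.Surf.Param
import Vale.Agent.Lib.P002.Closed.Diag

set_option linter.unusedSectionVars false
set_option linter.unusedVariables false
set_option linter.unusedSimpArgs false
set_option linter.unnecessarySeqFocus false

namespace Vale.Agent.Lib.P002.Surf

open MvPolynomial

/-- Evaluation of a polynomial at a point of the torus. -/
noncomputable def evt {Ι : Type} (t : Ι → ℂˣ) (P : MvPolynomial Ι ℂ) : ℂ :=
  MvPolynomial.eval (fun i => ((t i : ℂˣ) : ℂ)) P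

section ratring

variable {Ι : Type} (E : MvPolynomial Ι ℂ)

/-- The points of the torus where `E` does not vanish. -/
abbrev DomT := {t : Ι → ℂˣ // evt t E ≠ 0}

/-- The ring of rational functions with denominator a power of `E`. -/
def RatRing : Subring (DomT E → ℂ) where
  carrier := {g | ∃ (P : MvPolynomial Ι ℂ) (e : ℕ), ∀ t : DomT E, g t * (evt t.1 E) ^ e = evt t.1 P}
  mul_mem' := by
    rintro g h ⟨P, e, hP⟩ ⟨Q, e', hQ⟩
    refine ⟨P * Q, e + e', fun t => ?_⟩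
    have h1 : evt t.1 (P * Q) = evt t.1 P * evt t.1 Q := map_mul _ _ _
    rw [h1, ← hP, ← hQ, pow_add]
    simp only [Pi.mul_apply]
    ring
  one_mem' := ⟨1, 0, fun t => by simp [evt]⟩
  add_mem' := by
    rintro g h ⟨P, e, hP⟩ ⟨Q, e', hQ⟩
    refine ⟨P * E ^ e' + Q * E ^ e, e + e', fun t => ?_⟩
    have h1 : evt t.1 (P * E ^ e' + Q * E ^ e) =
        evt t.1 P * (evt t.1 E) ^ e' + evt t.1 Q * (evt t.1 E) ^ e := by
      simp only [evt, map_add, map_mul, map_pow]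
    rw [h1, ← hP, ← hQ, pow_add]
    simp only [Pi.add_apply]
    ring
  zero_mem' := ⟨0, 0, fun t => by simp [evt]⟩
  neg_mem' := by
    rintro g ⟨P, e, hP⟩
    refine ⟨-P, e, fun t => ?_⟩
    have h1 : evt t.1 (-P) = - evt t.1 P := map_neg _ _
    rw [h1, ← hP]
    simp

/-- Evaluation on the ring of rational functions. -/
def evR (t : DomT E) : RatRing E →+* ℂ :=
  (Pi.evalRingHom (fun _ : DomT E => ℂ) t).comp (RatRing E).subtype

@[simp] lemma evR_apply (t : DomT E) (x : RatRing E) : evR E t x = x.1 t := rfl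

/-- The constants. -/
def constR : ℂ →+* RatRing E where
  toFun c := ⟨fun _ => c, MvPolynomial.C c, 0, fun t => by simp [evt]⟩
  map_one' := rfl
  map_mul' _ _ := rfl
  map_zero' := rfl
  map_add' _ _ := rfl

@[simp] lemma evR_constR (t : DomT E) (c : ℂ) : evR E t (constR E c) = c := rfl

end ratring

section laurentfam

variable {Ι : Type} [Fintype Ι] {L : Type} [Fintype L] (h : L → (Ι → ℂˣ) → ℂ)
  (hL : ∀ l, IsLaurentFn (h l))

/-- The denominator polynomial attached to a family of Laurent functions. -/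
noncomputable def famP (l : L) : MvPolynomial Ι ℂ := (hL l).choose

noncomputable def famE (l : L) : ℕ := (hL l).choose_spec.choose

lemma fam_spec (l : L) (t : Ι → ℂˣ) :
    h l t * (∏ i, ((t i : ℂˣ) : ℂ)) ^ famE h hL l = evt t (famP h hL l) :=
  (hL l).choose_spec.choose_spec t

/-- The common denominator. -/
noncomputable def famD : MvPolynomial Ι ℂ := monoP Ι * ∏ l, famP h hL l

lemma evt_monoP (t : Ι → ℂˣ) : evt t (monoP Ι) = ∏ i, ((t i : ℂˣ) : ℂ) := eval_monoP t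

lemma prod_coords_ne (t : Ι → ℂˣ) : ∏ i, ((t i : ℂˣ) : ℂ) ≠ 0 :=
  Finset.prod_ne_zero_iff.mpr fun i _ => (t i).ne_zero

lemma evt_famD (t : Ι → ℂˣ) :
    evt t (famD h hL) = (∏ i, ((t i : ℂˣ) : ℂ)) * ∏ l, evt t (famP h hL l) := by
  simp only [famD, evt, map_mul, map_prod]
  rw [← evt, evt_monoP]

lemma famD_ne_of {t : Ι → ℂˣ} (ht : ∀ l, h l t ≠ 0) : evt t (famD h hL) ≠ 0 := by
  rw [evt_famD]
  apply mul_ne_zero (prod_coords_ne t)
  apply Finset.prod_ne_zero_iff.mpr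
  intro l _
  rw [← fam_spec]
  exact mul_ne_zero (ht l) (pow_ne_zero _ (prod_coords_ne t))

lemma ne_of_famD {t : Ι → ℂˣ} (ht : evt t (famD h hL) ≠ 0) (l : L) : h l t ≠ 0 := by
  classical
  intro h0
  apply ht
  rw [evt_famD]
  apply mul_eq_zero_of_right
  apply Finset.prod_eq_zero (Finset.mem_univ l)
  rw [← fam_spec, h0, zero_mul]

/-- Laurent functions are rational. -/
lemma laurent_mem {g : (Ι → ℂˣ) → ℂ} (hg : IsLaurentFn g) :
    (fun t : DomT (famD h hL) => g t.1) ∈ RatRing (famD h hL) := by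
  obtain ⟨P, e, hP⟩ := hg
  refine ⟨P * (∏ l, famP h hL l) ^ e, e, fun t => ?_⟩
  have h1 : evt t.1 (P * (∏ l, famP h hL l) ^ e) =
      evt t.1 P * (∏ l, evt t.1 (famP h hL l)) ^ e := by
    simp only [evt, map_mul, map_pow, map_prod]
  have h2 : evt t.1 P = g t.1 * (∏ i, ((t.1 i : ℂˣ) : ℂ)) ^ e := (hP t.1).symm
  rw [h1, h2, evt_famD, mul_pow]
  ring

/-- The inverses of the members of the family are rational. -/
lemma fam_inv_mem (l : L) :
    (fun t : DomT (famD h hL) => (h l t.1)⁻¹) ∈ RatRing (famD h hL) := by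
  classical
  refine ⟨monoP Ι * (monoP Ι) ^ famE h hL l * ∏ l' ∈ Finset.univ.erase l, famP h hL l', 1,
    fun t => ?_⟩
  have hne := ne_of_famD h hL t.2 l
  have h1 : evt t.1 (monoP Ι * (monoP Ι) ^ famE h hL l * ∏ l' ∈ Finset.univ.erase l, famP h hL l') =
      (∏ i, ((t.1 i : ℂˣ) : ℂ)) * (∏ i, ((t.1 i : ℂˣ) : ℂ)) ^ famE h hL l *
        ∏ l' ∈ Finset.univ.erase l, evt t.1 (famP h hL l') := by
    rw [← evt_monoP]
    simp only [evt, map_mul, map_pow, map_prod]
  rw [h1, pow_one, evt_famD, ← Finset.mul_prod_erase _ _ (Finset.mem_univ l), ← fam_spec]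
  field_simp

/-- The members of the family are units of the ring of rational functions. -/
noncomputable def famU (l : L) (hm : (fun t : DomT (famD h hL) => h l t.1) ∈ RatRing (famD h hL)) :
    (RatRing (famD h hL))ˣ where
  val := ⟨_, hm⟩
  inv := ⟨_, fam_inv_mem h hL l⟩
  val_inv := by
    apply Subtype.ext
    funext t
    exact mul_inv_cancel₀ (ne_of_famD h hL t.2 l)
  inv_val := by
    apply Subtype.ext
    funext t
    exact inv_mul_cancel₀ (ne_of_famD h hL t.2 l)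

end laurentfam

/-! ### Density -/

section density

variable {Ι₁ Ι₂ : Type} [Finite Ι₁] [Finite Ι₂]

lemma eval_aeval_comp {σ τ : Type} (φ : σ → MvPolynomial τ ℂ) (y : τ → ℂ) (P : MvPolynomial σ ℂ) :
    MvPolynomial.eval y (MvPolynomial.aeval φ P) =
      MvPolynomial.eval (fun i => MvPolynomial.eval y (φ i)) P := by
  induction P using MvPolynomial.induction_on with
  | C c => simp
  | add p q hp hq => rw [map_add, map_add, map_add, hp, hq]
  | mul_X p i hp => rw [map_mul, map_mul, map_mul, hp, MvPolynomial.aeval_X, MvPolynomial.eval_X]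

lemma infinite_coe_image (S : Set ℂˣ) (hS : S.Infinite) : ((fun u : ℂˣ => (u : ℂ)) '' S).Infinite :=
  hS.image (fun a _ b _ hab => Units.ext hab)

lemma eq_zero_of_units_grid {σ : Type} [Finite σ] (P : MvPolynomial σ ℂ) (S : σ → Set ℂˣ)
    (hS : ∀ i, (S i).Infinite) (h : ∀ t : σ → ℂˣ, (∀ i, t i ∈ S i) → evt t P = 0) : P = 0 := by
  apply MvPolynomial.funext_set (fun i => ((fun u : ℂˣ => (u : ℂ)) '' S i))
  · exact fun i => infinite_coe_image _ (hS i)
  · intro x hx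
    have hx' : ∀ i, ∃ u ∈ S i, (u : ℂ) = x i := fun i => hx i (Set.mem_univ i)
    choose u hu hux using hx'
    have hx2 : x = fun i => ((u i : ℂˣ) : ℂ) := by
      funext i
      exact (hux i).symm
    rw [hx2, map_zero]
    exact h u hu

lemma evt_elim (x : Ι₁ → ℂˣ) (y : Ι₂ → ℂˣ) (P : MvPolynomial (Ι₁ ⊕ Ι₂) ℂ) :
    evt (Sum.elim x y) P =
      MvPolynomial.eval (Sum.elim (fun i => ((x i : ℂˣ) : ℂ)) (fun j => ((y j : ℂˣ) : ℂ))) P := by
  simp only [evt]
  congr 2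
  funext i
  cases i <;> rfl

/-- A nested density statement. -/
theorem nested_vanish (P : MvPolynomial (Ι₁ ⊕ Ι₂) ℂ) (X : Ι₁ → Set ℂˣ) (hX : ∀ i, (X i).Infinite)
    (S : (Ι₁ → ℂˣ) → Set ℂˣ) (hS : ∀ x, (S x).Infinite)
    (h : ∀ x : Ι₁ → ℂˣ, (∀ i, x i ∈ X i) → ∀ y : Ι₂ → ℂˣ, (∀ j, y j ∈ S x) →
      evt (Sum.elim x y) P = 0) (x : Ι₁ → ℂˣ) (y : Ι₂ → ℂˣ) : evt (Sum.elim x y) P = 0 := by
  -- first step: fix `x` in the grid
  have h1 : ∀ x : Ι₁ → ℂˣ, (∀ i, x i ∈ X i) → ∀ y : Ι₂ → ℂˣ, evt (Sum.elim x y) P = 0 := by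
    intro x hx y
    let Px : MvPolynomial Ι₂ ℂ := MvPolynomial.aeval
      (Sum.elim (fun i => MvPolynomial.C ((x i : ℂˣ) : ℂ)) MvPolynomial.X) P
    have hPx : ∀ y : Ι₂ → ℂˣ, evt y Px = evt (Sum.elim x y) P := by
      intro y
      rw [evt_elim, evt, eval_aeval_comp]
      congr 2
      funext i
      cases i <;> simp
    have hP0 : Px = 0 := by
      apply eq_zero_of_units_grid Px (fun _ => S x) (fun _ => hS x)
      intro y hy
      rw [hPx]
      exact h x hx y hy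
    rw [← hPx, hP0]
    simp [evt]
  -- second step: fix `y`
  let Qy : MvPolynomial Ι₁ ℂ := MvPolynomial.aeval
    (Sum.elim MvPolynomial.X (fun j => MvPolynomial.C ((y j : ℂˣ) : ℂ))) P
  have hQy : ∀ x : Ι₁ → ℂˣ, evt x Qy = evt (Sum.elim x y) P := by
    intro x
    rw [evt_elim, evt, eval_aeval_comp]
    congr 2
    funext i
    cases i <;> simp
  have hQ0 : Qy = 0 := by
    apply eq_zero_of_units_grid Qy X hX
    intro x hx
    rw [hQy]
    exact h1 x hx y
  rw [← hQy, hQ0]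
  simp [evt]

end density

/-! ### Congruences -/

section cong

variable {J : Type} {O : Subring ℂ} {y : ℂ} {K : ℕ}

/-- Two points of the torus which are close give close values. -/
lemma ev_cong (t t' : J → ℂˣ)
    (ht : ∀ i, ((t i : ℂˣ) : ℂ) ∈ O ∧ (((t i)⁻¹ : ℂˣ) : ℂ) ∈ O)
    (ht' : ∀ i, ((t' i : ℂˣ) : ℂ) ∈ O ∧ (((t' i)⁻¹ : ℂˣ) : ℂ) ∈ O)
    (h1 : ∀ i, Vv O y K (((t i : ℂˣ) : ℂ) - t' i))
    (h2 : ∀ i, Vv O y K ((((t i)⁻¹ : ℂˣ) : ℂ) - (((t' i)⁻¹ : ℂˣ) : ℂ)))
    (a : LRing O J) : Vv O y K (ev t a - ev t' a) := by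
  obtain ⟨a, ha⟩ := a
  show Vv O y K (a t - a t')
  induction ha using Subring.closure_induction with
  | mem a ha =>
    rcases ha with ((⟨c, rfl⟩ | ⟨i, rfl⟩) | ⟨i, rfl⟩)
    · simpa using Vv_zero O y K
    · exact h1 i
    · exact h2 i
  | zero => simpa using Vv_zero O y K
  | one => simpa using Vv_zero O y K
  | add a b _ _ ha hb =>
    have : (a + b) t - (a + b) t' = (a t - a t') + (b t - b t') := by
      simp only [Pi.add_apply]
      ring
    rw [this]
    exact Vv_add O y ha hb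
  | neg a _ ha =>
    have : (-a) t - (-a) t' = -(a t - a t') := by
      simp only [Pi.neg_apply]
      ring
    rw [this]
    exact Vv_neg O y ha
  | mul a b ha' hb' ha hb =>
    have : (a * b) t - (a * b) t' = (a t - a t') * b t + a t' * (b t - b t') := by
      simp only [Pi.mul_apply]
      ring
    rw [this]
    have hb1 : b t ∈ O := ev_mem ht ⟨b, hb'⟩
    have ha1 : a t' ∈ O := ev_mem ht' ⟨a, ha'⟩
    exact Vv_add O y (Vv_mul O y ha hb1) (Vv_mul' O y hb ha1)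

end cong

/-! ### Powers of the unit close to one -/

section powers

variable (L : IntermediateField ℚ ℂ) (hs : s2 ∈ L)

lemma aeval_int_mem {O : Subring ℂ} {x : ℂ} (hx : x ∈ O) (Q : Polynomial ℤ) :
    Polynomial.aeval x Q ∈ O := by
  induction Q using Polynomial.induction_on with
  | C a =>
    simp
  | add p q hp hq =>
    simpa using O.add_mem hp hq
  | monomial n a h =>
    have : Polynomial.aeval x (Polynomial.C a * Polynomial.X ^ (n + 1)) =
        Polynomial.aeval x (Polynomial.C a * Polynomial.X ^ n) * x := by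
      simp [pow_succ, mul_assoc]
    rw [this]
    exact O.mul_mem h hx

lemma exists_int_multiple {O : Subring ℂ} {x : ℂ} (hx : x ∈ O) (hx0 : x ≠ 0) :
    ∀ (n : ℕ) (P : Polynomial ℤ), P.natDegree ≤ n → P ≠ 0 → Polynomial.aeval x P = 0 →
      ∃ c : ℤ, c ≠ 0 ∧ ∃ w ∈ O, (c : ℂ) = x * w := by
  intro n
  induction n with
  | zero =>
    intro P hd hP h
    have h1 := Polynomial.eq_C_of_natDegree_le_zero hd
    rw [h1] at h hP
    have h2 : ((P.coeff 0 : ℤ) : ℂ) = 0 := by simpa using h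
    have h3 : P.coeff 0 = 0 := by exact_mod_cast h2
    rw [h3] at hP
    simp at hP
  | succ n ih =>
    intro P hd hP h
    have hdec := Polynomial.divX_mul_X_add P
    have h3 : Polynomial.aeval x P.divX * x + (P.coeff 0 : ℂ) = 0 := by
      have := congrArg (Polynomial.aeval x) hdec
      rw [h] at this
      simpa using this
    by_cases h0 : P.coeff 0 = 0
    · have h4 : Polynomial.aeval x P.divX = 0 := by
        rw [h0] at h3
        simpa [hx0] using h3
      apply ih P.divX _ _ h4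
      · rw [Polynomial.natDegree_divX_eq_natDegree_tsub_one]
        omega
      · intro h5
        apply hP
        rw [← hdec, h5, h0]
        simp
    · refine ⟨P.coeff 0, h0, - Polynomial.aeval x P.divX, O.neg_mem (aeval_int_mem hx _), ?_⟩
      linear_combination h3

lemma int_multiple_of_integral {O : Subring ℂ} {x : ℂ} (hx : x ∈ O) (hx0 : x ≠ 0)
    (hi : IsIntegral ℤ x) : ∃ c : ℤ, c ≠ 0 ∧ ∃ w ∈ O, (c : ℂ) = x * w := by
  obtain ⟨P, hP, hP2⟩ := hi
  refine exists_int_multiple hx hx0 _ P le_rfl hP.ne_zero ?_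
  simpa [Polynomial.aeval_def] using hP2

/-- The integer coordinates of the powers of the unit. -/
def uvs : ℕ → ℤ × ℤ
  | 0 => (1, 0)
  | k + 1 => ((uvs k).1 + 2 * (uvs k).2, (uvs k).1 + (uvs k).2)

lemma uvs_spec (k : ℕ) : ((epsU ^ k : ℂˣ) : ℂ) = ((uvs k).1 : ℂ) + ((uvs k).2 : ℂ) * s2 := by
  induction k with
  | zero => simp [uvs]
  | succ k ih =>
    rw [pow_succ, Units.val_mul, ih]
    show _ * (1 + s2) = _
    simp only [uvs]
    push_cast
    linear_combination ((uvs k).2 : ℂ) * s2_sq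

include hs in
lemma s2_mem_ints' : s2 ∈ ints L := ⟨hs, s2_integral⟩

include hs in
lemma epsU_pow_mem' (k : ℕ) :
    (((epsU ^ k : ℂˣ)) : ℂ) ∈ ints L ∧ ((((epsU ^ k)⁻¹ : ℂˣ)) : ℂ) ∈ ints L := by
  constructor
  · rw [Units.val_pow_eq_pow_val]
    apply pow_mem
    exact (ints _).add_mem (ints _).one_mem (s2_mem_ints' L hs)
  · rw [← inv_pow, Units.val_pow_eq_pow_val]
    apply pow_mem
    exact (ints _).sub_mem (s2_mem_ints' L hs) (ints _).one_mem

include hs in
/-- A power of the unit is congruent to one modulo an integer. -/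
lemma exists_pow_int_cong (c : ℤ) (hc : c ≠ 0) :
    ∃ M, 1 ≤ M ∧ ∃ w ∈ ints L, ((epsU ^ M : ℂˣ) : ℂ) - 1 = c * w := by
  have hn : c.natAbs ≠ 0 := Int.natAbs_ne_zero.mpr hc
  haveI : NeZero c.natAbs := ⟨hn⟩
  let F : ℕ → ZMod c.natAbs × ZMod c.natAbs := fun k => (((uvs k).1 : ZMod c.natAbs), ((uvs k).2 : ZMod c.natAbs))
  obtain ⟨a, b, hab, hF⟩ := Finite.exists_ne_map_eq_of_infinite F
  wlog hlt : a < b generalizing a b
  · exact this b a hab.symm hF.symm (lt_of_le_of_ne (not_lt.mp hlt) hab.symm)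
  have h1 : ((uvs a).1 : ZMod c.natAbs) = ((uvs b).1 : ZMod c.natAbs) := congrArg Prod.fst hF
  have h2 : ((uvs a).2 : ZMod c.natAbs) = ((uvs b).2 : ZMod c.natAbs) := congrArg Prod.snd hF
  rw [ZMod.intCast_eq_intCast_iff_dvd_sub, Int.natCast_natAbs, abs_dvd] at h1 h2
  obtain ⟨u, hu⟩ := h1
  obtain ⟨v, hv⟩ := h2
  refine ⟨b - a, by omega, ((epsU ^ a)⁻¹ : ℂˣ) * ((u : ℂ) + (v : ℂ) * s2), ?_, ?_⟩
  · apply (ints L).mul_mem (epsU_pow_mem' L hs a).2
    apply (ints L).add_mem (intCast_mem _ u)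
    exact (ints L).mul_mem (intCast_mem _ v) (s2_mem_ints' L hs)
  · have h3 : ((epsU ^ b : ℂˣ) : ℂ) - (epsU ^ a : ℂˣ) = c * ((u : ℂ) + (v : ℂ) * s2) := by
      rw [uvs_spec, uvs_spec]
      have hu' : ((uvs b).1 : ℂ) - (uvs a).1 = c * u := by exact_mod_cast hu
      have hv' : ((uvs b).2 : ℂ) - (uvs a).2 = c * v := by exact_mod_cast hv
      linear_combination hu' + s2 * hv'
    have h4 : ((epsU ^ (b - a) : ℂˣ) : ℂ) = ((epsU ^ a)⁻¹ : ℂˣ) * (epsU ^ b : ℂˣ) := by
      rw [← Units.val_mul]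
      congr 1
      rw [eq_inv_mul_iff_mul_eq, ← pow_add]
      congr 1
      omega
    have h5 : (((epsU ^ a)⁻¹ : ℂˣ) : ℂ) * ((epsU ^ a : ℂˣ) : ℂ) = 1 := by
      rw [← Units.val_mul]
      simp
    rw [h4]
    linear_combination (((epsU ^ a)⁻¹ : ℂˣ) : ℂ) * h3 + h5

include hs in
/-- A power of the unit is congruent to one modulo a power of `y`. -/
lemma exists_pow_cong {y : ℂ} (hy : y ∈ ints L) (hy0 : y ≠ 0) (K : ℕ) :
    ∃ M, 1 ≤ M ∧ Vv (ints L) y K (((epsU ^ M : ℂˣ) : ℂ) - 1) := by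
  have hx : y ^ K ∈ ints L := pow_mem hy K
  obtain ⟨c, hc, w, hw, hcw⟩ := int_multiple_of_integral hx (pow_ne_zero K hy0) hx.2
  obtain ⟨M, hM, w', hw', h⟩ := exists_pow_int_cong L hs c hc
  refine ⟨M, hM, w * w', (ints L).mul_mem hw hw', ?_⟩
  rw [h, hcw]
  ring

include hs in
lemma pow_cong_closed {y : ℂ} {K M : ℕ} (hM : Vv (ints L) y K (((epsU ^ M : ℂˣ) : ℂ) - 1)) (v : ℕ) :
    Vv (ints L) y K ((((epsU ^ M) ^ v : ℂˣ) : ℂ) - 1) ∧
      Vv (ints L) y K ((((((epsU ^ M) ^ v)⁻¹ : ℂˣ)) : ℂ) - 1) := by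
  have h1 : Vv (ints L) y K ((((epsU ^ M) ^ v : ℂˣ) : ℂ) - 1) := by
    induction v with
    | zero => simpa using Vv_zero (ints L) y K
    | succ v ih =>
      have : (((epsU ^ M) ^ (v + 1) : ℂˣ) : ℂ) - 1 =
          (((epsU ^ M) ^ v : ℂˣ) : ℂ) * (((epsU ^ M : ℂˣ) : ℂ) - 1) +
            ((((epsU ^ M) ^ v : ℂˣ) : ℂ) - 1) := by
        rw [pow_succ, Units.val_mul]
        ring
      rw [this]
      apply Vv_add _ _ _ ih
      apply Vv_mul' _ _ hM
      have h2 := (epsU_pow_mem' L hs (M * v)).1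
      rwa [pow_mul] at h2
  refine ⟨h1, ?_⟩
  have h3 : (((((epsU ^ M) ^ v)⁻¹ : ℂˣ)) : ℂ) - 1 =
      - ((((((epsU ^ M) ^ v)⁻¹ : ℂˣ)) : ℂ) * ((((epsU ^ M) ^ v : ℂˣ) : ℂ) - 1)) := by
    have h4 : (((((epsU ^ M) ^ v)⁻¹ : ℂˣ)) : ℂ) * (((epsU ^ M) ^ v : ℂˣ) : ℂ) = 1 := by
      rw [← Units.val_mul]
      simp
    linear_combination h4
  rw [h3]
  apply Vv_neg
  apply Vv_mul' _ _ h1
  have h2 := (epsU_pow_mem' L hs (M * v)).2
  rwa [pow_mul] at h2

end powers

end Vale.Agent.Lib.P002.Surf
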