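import Mathlib
import Vale.Agent.Lib.P002.Surf.Fan

set_option linter.unusedSectionVars false
set_option linter.unusedVariables false
set_option linter.unusedSimpArgs false
set_option linter.unnecessarySeqFocus false

namespace Vale.Agent.Lib.P002.Surf

variable {G : Type*} [Group G]

/-- The ascending product. -/
def prodU (W : ℕ → G) : ℕ → G
  | 0 => 1
  | n + 1 => prodU W n * W n

lemma prodU_ofFn (W : ℕ → G) (n : ℕ) : (List.ofFn fun k : Fin n => W k).prod = prodU W n := by
  induction n with
  | zero => simp [prodU]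
  | succ n ih =>
    rw [List.ofFn_succ', List.prod_concat]
    simp only [prodU, Fin.val_castSucc, Fin.val_last]
    rw [ih]

lemma prodU_add (W : ℕ → G) (a b : ℕ) :
    prodU W (a + b) = prodU W a * prodU (fun k => W (a + k)) b := by
  induction b with
  | zero => simp [prodU]
  | succ b ih =>
    rw [← Nat.add_assoc]
    simp only [prodU]
    rw [ih, mul_assoc]

lemma prodU_congr {W W' : ℕ → G} (n : ℕ) (h : ∀ k, k < n → W k = W' k) :
    prodU W n = prodU W' n := by
  induction n with
  | zero => rfl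
  | succ n ih =>
    simp only [prodU]
    rw [ih (fun k hk => h k (by omega)), h n (by omega)]

lemma prodU_conj (W : ℕ → G) (Q : G) (n : ℕ) :
    prodU (fun k => Q * W k * Q⁻¹) n = Q * prodU W n * Q⁻¹ := by
  induction n with
  | zero => simp [prodU]
  | succ n ih =>
    simp only [prodU]
    rw [ih]
    group

lemma prodU_inv (W : ℕ → G) (n : ℕ) :
    prodU (fun k => (W k)⁻¹) n = (prodDown W n)⁻¹ := by
  induction n with
  | zero => simp [prodU, prodDown]
  | succ n ih =>
    simp only [prodU, prodDown]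
    rw [ih]
    group

lemma prodU_rev (W : ℕ → G) (n : ℕ) :
    prodU (fun k => W (n - 1 - k)) n = prodDown W n := by
  rw [← prodU_ofFn, ← prod_ofFn_rev]

/-- The first generators of the closed surface. -/
def AAc (h s' : ℕ) (x y' : ℕ → G) (C Q : G) (k : ℕ) : G :=
  if k < h then x (h - 1 - k) else if k < h + s' then C else Q * y' (k - h - s') * Q⁻¹

/-- The second generators of the closed surface. -/
def BBc (h s' : ℕ) (y x' : ℕ → G) (Q T : G) (k : ℕ) : G :=
  if k < h then y (h - 1 - k) else if k < h + s' then Q * T else Q * x' (k - h - s') * Q⁻¹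

/-- The surface relation for the glued generators. -/
theorem closed_word (h s' : ℕ) (hs : s' ≤ 1) (x y x' y' : ℕ → G) (C C' Q T H H' : G)
    (hH : prodDown (fun i => x i * y i * (x i)⁻¹ * (y i)⁻¹) h * (if s' = 1 then C else 1) = H)
    (hH' : prodDown (fun i => x' i * y' i * (x' i)⁻¹ * (y' i)⁻¹) h * (if s' = 1 then C' else 1) = H')
    (hQ : Q * H' * Q⁻¹ = H) (hT : s' = 1 → T * C * T⁻¹ = C') :
    (List.ofFn fun k : Fin (2 * h + s') =>
      AAc h s' x y' C Q k * BBc h s' y x' Q T k * (AAc h s' x y' C Q k)⁻¹ *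
        (BBc h s' y x' Q T k)⁻¹).prod = 1 := by
  set w : ℕ → G := fun k => AAc h s' x y' C Q k * BBc h s' y x' Q T k *
    (AAc h s' x y' C Q k)⁻¹ * (BBc h s' y x' Q T k)⁻¹ with hw
  have h0 : (List.ofFn fun k : Fin (2 * h + s') =>
      AAc h s' x y' C Q k * BBc h s' y x' Q T k * (AAc h s' x y' C Q k)⁻¹ *
        (BBc h s' y x' Q T k)⁻¹).prod = prodU w (2 * h + s') := prodU_ofFn w _
  rw [h0]
  have e : 2 * h + s' = h + s' + h := by omega
  rw [e, prodU_add, prodU_add]
  -- the first part
  have h1 : prodU w h = prodDown (fun i => x i * y i * (x i)⁻¹ * (y i)⁻¹) h := by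
    rw [← prodU_rev]
    apply prodU_congr
    intro k hk
    simp only [hw, AAc, BBc, if_pos hk]
  -- the last part
  have h3 : prodU (fun k => w (h + s' + k)) h =
      Q * (prodDown (fun i => x' i * y' i * (x' i)⁻¹ * (y' i)⁻¹) h)⁻¹ * Q⁻¹ := by
    rw [← prodU_inv, ← prodU_conj]
    apply prodU_congr
    intro k hk
    have h4 : ¬ (h + s' + k < h) := by omega
    have h5 : ¬ (h + s' + k < h + s') := by omega
    have h6 : h + s' + k - h - s' = k := by omega
    simp only [hw, AAc, BBc, if_neg h4, if_neg h5, h6]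
    group
  -- the middle part
  rw [h1, h3]
  have hH2 := hH
  have hH3 := hH'
  generalize prodDown (fun i => x i * y i * (x i)⁻¹ * (y i)⁻¹) h = W at *
  generalize prodDown (fun i => x' i * y' i * (x' i)⁻¹ * (y' i)⁻¹) h = W' at *
  have hs2 : s' = 0 ∨ s' = 1 := by omega
  rcases hs2 with rfl | rfl
  · simp only [Nat.add_zero, prodU, mul_one, if_neg (by norm_num : ¬ (0 = 1))] at *
    subst hH hH'
    rw [← hQ]
    group
  · have hmid : prodU (fun k => w (h + k)) 1 = C * Q * C'⁻¹ * Q⁻¹ := by
      simp only [prodU, one_mul, hw, AAc, BBc, Nat.add_zero]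
      rw [if_neg (by omega), if_pos (by omega), if_neg (by omega), if_pos (by omega), ← hT rfl]
      group
    rw [hmid]
    simp only [if_true] at hH hH'
    subst hH hH'
    have hQ2 : W * C = Q * (W' * C') * Q⁻¹ := hQ.symm
    calc W * (C * Q * C'⁻¹ * Q⁻¹) * (Q * W'⁻¹ * Q⁻¹)
        = (W * C) * (Q * (C'⁻¹ * W'⁻¹) * Q⁻¹) := by group
      _ = (Q * (W' * C') * Q⁻¹) * (Q * (C'⁻¹ * W'⁻¹) * Q⁻¹) := by rw [hQ2]
      _ = 1 := by group

end Vale.Agent.Lib.P002.Surf
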