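import Mathlib
import Vale.Agent.Lib.P002.Surf.Final
import Vale.Agent.Lib.P002.Closed.Rat
import Vale.Agent.Lib.P002.Closed.Word

set_option linter.unusedSectionVars false
set_option linter.unusedVariables false
set_option linter.unusedSimpArgs false
set_option linter.unnecessarySeqFocus false

namespace Vale.Agent.Lib.P002.Surf

open Matrix

variable {R A : Type*} [CommRing R] [CommRing A] {n s b : ℕ}

lemma gdet_GLmap_eq {S : Type*} [CommRing S] {r : ℕ} (f : R →+* S) (M : GLr R r) :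
    gdet (GLmap f M) = Units.map (f : R →* S) (gdet M) := by
  apply Units.ext
  rw [gdet_val]
  have h1 : (GLmap f M).1 = f.mapMatrix M.1 := rfl
  rw [h1, ← RingHom.map_det]
  rfl

lemma dw_map {S : Type*} [CommRing S] (f : R →+* S) :
    Units.map (f : R →* S) (dw R n) = dw S n := by
  simp only [dw]
  rw [← gdet_GLmap_eq, GLmap_w0]

lemma isUnit_inv_sub {a b : Aˣ} (h : IsUnit ((a : A) - b)) :
    IsUnit (((a⁻¹ : Aˣ) : A) - ((b⁻¹ : Aˣ) : A)) := by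
  have h1 : ((a⁻¹ : Aˣ) : A) - ((b⁻¹ : Aˣ) : A) =
      -(((a : A) - b) * ((a⁻¹ : Aˣ) : A) * ((b⁻¹ : Aˣ) : A)) := by
    have h2 : (a : A) * ((a⁻¹ : Aˣ) : A) = 1 := a.mul_inv
    have h3 : (b : A) * ((b⁻¹ : Aˣ) : A) = 1 := b.mul_inv
    linear_combination ((b⁻¹ : Aˣ) : A) * h2 - ((a⁻¹ : Aˣ) : A) * h3
  rw [h1]
  exact (((h.mul (a⁻¹).isUnit).mul (b⁻¹).isUnit)).neg

section glue

variable (I : Inp R n s b) (hm : 4 ≤ mm s b) (ι₁ ι₂ : R →+* A)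
  (ha : ∀ k, k ≤ s → ∀ i, ι₁ (I.a k i) = ι₂ (I.a k i))
  (hdA : ∀ k, k ≤ s → ∀ i i', i ≠ i' → IsUnit (ι₁ (I.a k i) - ι₁ (I.a k i')))
  (τ κ : Fin (n + 2) → Aˣ)

/-- The diagonal of the holonomy at the base vertex. -/
noncomputable def qH : Fin (n + 2) → Aˣ := mapZ ι₁ (dg (HH I hm))

lemma dg_HH_eq : dg (HH I hm) = (I.a s)⁻¹ := by
  rw [dg_HH, DD_eq]

lemma dg_mapB_HH₁ : dg (mapB ι₁ (HH I hm)) = qH I hm ι₁ := dg_mapB _ _

include ha in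
lemma dg_mapB_HH₂ : dg (mapB ι₂ (HH I hm)) = qH I hm ι₁ := by
  rw [dg_mapB, qH, dg_HH_eq]
  funext i
  apply Units.ext
  have h1 : ∀ (ι : R →+* A), ((mapZ ι (I.a s)⁻¹ i : Aˣ) : A) =
      (((Units.map (ι : R →* A) (I.a s i))⁻¹ : Aˣ) : A) := by
    intro ι
    simp [mapZ]
  rw [h1, h1]
  have h2 : Units.map (ι₂ : R →* A) (I.a s i) = Units.map (ι₁ : R →* A) (I.a s i) := by
    apply Units.ext
    exact (ha s le_rfl i).symm
  rw [h2]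

include hdA in
lemma diff_qH (i j : Fin (n + 2)) (hij : i ≠ j) :
    IsUnit (((qH I hm ι₁ j : Aˣ) : A) - (qH I hm ι₁ i : Aˣ)) := by
  have h1 : qH I hm ι₁ = fun i => (Units.map (ι₁ : R →* A) (I.a s i))⁻¹ := by
    funext i
    apply Units.ext
    simp [qH, dg_HH_eq, mapZ]
  rw [h1]
  apply isUnit_inv_sub
  exact hdA s le_rfl j i hij.symm

/-- The diagonal of the spike holonomy. -/
noncomputable def qS : Fin (n + 2) → Aˣ := mapZ ι₁ (dg (sBd I hm 0))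

lemma dg_mapB_S₁ : dg (mapB ι₁ (sBd I hm 0)) = qS I hm ι₁ := dg_mapB _ _

include ha in
lemma dg_mapB_S₂ : dg (mapB ι₂ (sBd I hm 0)) = qS I hm ι₁ := by
  rw [dg_mapB, qS, dg_sBd]
  funext i
  apply Units.ext
  exact (ha _ (by omega) i).symm

include hdA in
lemma diff_qS (i j : Fin (n + 2)) (hij : i ≠ j) :
    IsUnit (((qS I hm ι₁ j : Aˣ) : A) - (qS I hm ι₁ i : Aˣ)) := by
  simp only [qS, dg_sBd]
  exact hdA _ (by omega) j i hij.symm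

/-- The gluing matrix for the base vertex. -/
noncomputable def gQ (ha : ∀ k, k ≤ s → ∀ i, ι₁ (I.a k i) = ι₂ (I.a k i))
    (hdA : ∀ k, k ≤ s → ∀ i i', i ≠ i' → IsUnit (ι₁ (I.a k i) - ι₁ (I.a k i'))) : GLr A (n + 2) :=
  Cj (mapB ι₁ (HH I hm)) (mapB ι₂ (HH I hm)) (qH I hm ι₁) (dg_mapB_HH₁ I hm ι₁)
    (dg_mapB_HH₂ I hm ι₁ ι₂ ha) (fun i j hij => diff_qH I hm ι₁ hdA i j hij) τ

/-- The triangular part of the gluing matrix for the spike. -/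
noncomputable def gD (ha : ∀ k, k ≤ s → ∀ i, ι₁ (I.a k i) = ι₂ (I.a k i))
    (hdA : ∀ k, k ≤ s → ∀ i i', i ≠ i' → IsUnit (ι₁ (I.a k i) - ι₁ (I.a k i'))) : GLr A (n + 2) :=
  Cj (mapB ι₂ (sBd I hm 0)) (mapB ι₁ (sBd I hm 0)) (qS I hm ι₁)
    (dg_mapB_S₂ I hm ι₁ ι₂ ha) (dg_mapB_S₁ I hm ι₁)
    (fun i j hij => diff_qS I hm ι₁ hdA i j hij) κ

/-- The gluing matrix for the spike. -/
noncomputable def gT (ha : ∀ k, k ≤ s → ∀ i, ι₁ (I.a k i) = ι₂ (I.a k i))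
    (hdA : ∀ k, k ≤ s → ∀ i i', i ≠ i' → IsUnit (ι₁ (I.a k i) - ι₁ (I.a k i'))) : GLr A (n + 2) :=
  GLmap ι₂ ((theChain I hm).φ 1) * gD I hm ι₁ ι₂ κ ha hdA * (GLmap ι₁ ((theChain I hm).φ 1))⁻¹

lemma gQ_rel : gQ I hm ι₁ ι₂ τ ha hdA * GLmap ι₂ (HH I hm).1 =
    GLmap ι₁ (HH I hm).1 * gQ I hm ι₁ ι₂ τ ha hdA := Cj_rel _ _ _ _ _ _ _

lemma gQ_conj : gQ I hm ι₁ ι₂ τ ha hdA * GLmap ι₂ (HH I hm).1 * (gQ I hm ι₁ ι₂ τ ha hdA)⁻¹ =
    GLmap ι₁ (HH I hm).1 := by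
  rw [gQ_rel]
  group

lemma gD_rel : gD I hm ι₁ ι₂ κ ha hdA * GLmap ι₁ (sBd I hm 0).1 =
    GLmap ι₂ (sBd I hm 0).1 * gD I hm ι₁ ι₂ κ ha hdA := Cj_rel _ _ _ _ _ _ _

lemma sWd_map (ι : R →+* A) (hs : 0 < s) :
    GLmap ι (sWd I hm 0) = GLmap ι ((theChain I hm).φ 1) * GLmap ι (sBd I hm 0).1 *
      (GLmap ι ((theChain I hm).φ 1))⁻¹ := by
  rw [sWd_conj I hm 0 hs]
  simp only [map_mul, map_inv, Nat.mul_zero, Nat.zero_add]

lemma gT_conj (hs : 0 < s) :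
    gT I hm ι₁ ι₂ κ ha hdA * GLmap ι₁ (sWd I hm 0) * (gT I hm ι₁ ι₂ κ ha hdA)⁻¹ =
      GLmap ι₂ (sWd I hm 0) := by
  rw [sWd_map I hm ι₁ hs, sWd_map I hm ι₂ hs]
  simp only [gT]
  have h := gD_rel I hm ι₁ ι₂ ha hdA κ
  generalize gD I hm ι₁ ι₂ κ ha hdA = D at h
  generalize GLmap ι₁ ((theChain I hm).φ 1) = φ₁
  generalize GLmap ι₂ ((theChain I hm).φ 1) = φ₂
  generalize GLmap ι₁ (sBd I hm 0).1 = S₁ at h
  generalize GLmap ι₂ (sBd I hm 0).1 = S₂ at h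
  have h2 : S₂ = D * S₁ * D⁻¹ := by rw [h]; group
  rw [h2]
  group

/-- The word at the base vertex, in terms of the generators. -/
lemma hH_map {S : Type*} [CommRing S] (ι : R →+* S) (hs : s ≤ 1) :
    prodDown (fun i => GLmap ι (xW I hm i) * GLmap ι (yW I hm i) * (GLmap ι (xW I hm i))⁻¹ *
        (GLmap ι (yW I hm i))⁻¹) b * (if s = 1 then GLmap ι (sWd I hm 0) else 1) =
      GLmap ι (HH I hm).1 := by
  rw [← HH_word, map_mul, prodDown_map]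
  congr 1
  · congr 1
    funext i
    rw [← commutator_xy I hm i]
    simp only [map_mul, map_inv]
  · have hs2 : s = 0 ∨ s = 1 := by omega
    rcases hs2 with rfl | rfl
    · simp [prodDown]
    · simp [prodDown]

/-- The generators of the closed surface. -/
noncomputable def gensC (ha : ∀ k, k ≤ s → ∀ i, ι₁ (I.a k i) = ι₂ (I.a k i))
    (hdA : ∀ k, k ≤ s → ∀ i i', i ≠ i' → IsUnit (ι₁ (I.a k i) - ι₁ (I.a k i'))) :
    Gens (2 * b + s) 0 → GLr A (n + 2)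
  | Sum.inl k => AAc b s (fun i => GLmap ι₁ (xW I hm i)) (fun i => GLmap ι₂ (yW I hm i))
      (GLmap ι₁ (sWd I hm 0)) (gQ I hm ι₁ ι₂ τ ha hdA) k
  | Sum.inr (Sum.inl k) => BBc b s (fun i => GLmap ι₁ (yW I hm i)) (fun i => GLmap ι₂ (xW I hm i))
      (gQ I hm ι₁ ι₂ τ ha hdA) (gT I hm ι₁ ι₂ κ ha hdA) k
  | Sum.inr (Sum.inr j) => j.elim0

lemma gensC_relation (hs : s ≤ 1) :
    (List.ofFn fun k : Fin (2 * b + s) =>
      gensC I hm ι₁ ι₂ τ κ ha hdA (Sum.inl k) * gensC I hm ι₁ ι₂ τ κ ha hdA (Sum.inr (Sum.inl k)) *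
        (gensC I hm ι₁ ι₂ τ κ ha hdA (Sum.inl k))⁻¹ *
        (gensC I hm ι₁ ι₂ τ κ ha hdA (Sum.inr (Sum.inl k)))⁻¹).prod = 1 := by
  apply closed_word b s hs _ _ _ _ (GLmap ι₁ (sWd I hm 0)) (GLmap ι₂ (sWd I hm 0))
    (gQ I hm ι₁ ι₂ τ ha hdA) (gT I hm ι₁ ι₂ κ ha hdA)
    (GLmap ι₁ (HH I hm).1) (GLmap ι₂ (HH I hm).1)
    (hH_map I hm ι₁ hs) (hH_map I hm ι₂ hs) (gQ_conj I hm ι₁ ι₂ ha hdA τ)
    (fun h1 => gT_conj I hm ι₁ ι₂ ha hdA κ (by omega))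

lemma gdet_conj {r : ℕ} (Q X : GLr A r) : gdet (Q * X * Q⁻¹) = gdet X := by
  rw [map_mul, map_mul, map_inv]
  generalize gdet Q = x
  generalize gdet X = y
  calc x * y * x⁻¹ = x * x⁻¹ * y := by ac_rfl
    _ = y := by simp

lemma gQ_mem : gQ I hm ι₁ ι₂ τ ha hdA ∈ Bp A (n + 2) := Cj_mem _ _ _ _ _ _ _

lemma gD_mem : gD I hm ι₁ ι₂ κ ha hdA ∈ Bp A (n + 2) := Cj_mem _ _ _ _ _ _ _

lemma dg_gQ : dg ⟨gQ I hm ι₁ ι₂ τ ha hdA, gQ_mem I hm ι₁ ι₂ ha hdA τ⟩ = τ := dg_Cj _ _ _ _ _ _ _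

lemma dg_gD : dg ⟨gD I hm ι₁ ι₂ κ ha hdA, gD_mem I hm ι₁ ι₂ ha hdA κ⟩ = κ := dg_Cj _ _ _ _ _ _ _

lemma gdet_gQ : gdet (gQ I hm ι₁ ι₂ τ ha hdA) = ∏ i, τ i := by
  have := gdet_Bp (⟨_, gQ_mem I hm ι₁ ι₂ ha hdA τ⟩ : Bp A (n + 2))
  rw [dg_gQ] at this
  exact this

lemma gdet_gD : gdet (gD I hm ι₁ ι₂ κ ha hdA) = ∏ i, κ i := by
  have := gdet_Bp (⟨_, gD_mem I hm ι₁ ι₂ ha hdA κ⟩ : Bp A (n + 2))
  rw [dg_gD] at this
  exact this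

lemma gdet_gT : gdet (gT I hm ι₁ ι₂ κ ha hdA) = ∏ i, κ i := by
  simp only [gT, map_mul, map_inv, gdet_GLmap_eq]
  rw [gdet_gD, gdet_chain_mid I hm (by omega) (by omega), dw_map, dw_map]
  generalize dw A n = x
  generalize ∏ i, κ i = y
  calc x * y * x⁻¹ = x * x⁻¹ * y := by ac_rfl
    _ = y := by simp

lemma gensC_det (hdet : (∏ i, τ i) * ∏ i, κ i = 1) (x : Gens (2 * b + s) 0) :
    gdet (gensC I hm ι₁ ι₂ τ κ ha hdA x) = 1 := by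
  have hG : ∀ (ι : R →+* A) (M : GLr R (n + 2)), gdet M = 1 → gdet (GLmap ι M) = 1 :=
    fun ι M h => gdet_GLmap ι M h
  rcases x with k | k | j
  · have hk := k.isLt
    simp only [gensC, AAc]
    split_ifs with h1 h2
    · exact hG _ _ (gdet_xW I hm _ (by omega))
    · exact hG _ _ (gdet_sWd I hm _ (by omega))
    · rw [gdet_conj]
      exact hG _ _ (gdet_yW I hm _ (by omega))
  · have hk := k.isLt
    simp only [gensC, BBc]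
    split_ifs with h1 h2
    · exact hG _ _ (gdet_yW I hm _ (by omega))
    · rw [map_mul, gdet_gQ, gdet_gT, hdet]
    · rw [gdet_conj]
      exact hG _ _ (gdet_xW I hm _ (by omega))
  · exact j.elim0

end glue

end Vale.Agent.Lib.P002.Surf
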