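import Mathlib
import Vale.Agent.Lib.P002.Closed.Glue

set_option linter.unusedSectionVars false
set_option linter.unusedVariables false
set_option linter.unusedSimpArgs false
set_option linter.unnecessarySeqFocus false

namespace Vale.Agent.Lib.P002.Surf

open Matrix

/-- The invertible matrices over a subring. -/
def GLO (O : Subring ℂ) (r : ℕ) : Subgroup (GLr ℂ r) where
  carrier := {g | (∀ i j, g.1 i j ∈ O) ∧ ∀ i j, (g⁻¹).1 i j ∈ O}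
  mul_mem' := by
    rintro a b ⟨ha, ha'⟩ ⟨hb, hb'⟩
    constructor
    · intro i j
      show (a.1 * b.1) i j ∈ O
      rw [Matrix.mul_apply]
      exact sum_mem fun l _ => O.mul_mem (ha _ _) (hb _ _)
    · intro i j
      rw [_root_.mul_inv_rev]
      show ((b⁻¹).1 * (a⁻¹).1) i j ∈ O
      rw [Matrix.mul_apply]
      exact sum_mem fun l _ => O.mul_mem (hb' _ _) (ha' _ _)
  one_mem' := by
    constructor
    · intro i j
      show (1 : Matrix (Fin r) (Fin r) ℂ) i j ∈ O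
      rw [Matrix.one_apply]
      split_ifs
      · exact O.one_mem
      · exact O.zero_mem
    · intro i j
      rw [inv_one]
      show (1 : Matrix (Fin r) (Fin r) ℂ) i j ∈ O
      rw [Matrix.one_apply]
      split_ifs
      · exact O.one_mem
      · exact O.zero_mem
  inv_mem' := by
    rintro a ⟨ha, ha'⟩
    refine ⟨ha', ?_⟩
    simpa using ha

/-- A unit which is an integer close to one. -/
def Near (O : Subring ℂ) (y : ℂ) (K : ℕ) (u : ℂˣ) : Prop :=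
  (u : ℂ) ∈ O ∧ ((u⁻¹ : ℂˣ) : ℂ) ∈ O ∧ Vv O y K ((u : ℂ) - 1) ∧ Vv O y K (((u⁻¹ : ℂˣ) : ℂ) - 1)

section near

variable {O : Subring ℂ} {y : ℂ} {K : ℕ}

lemma Near_one : Near O y K 1 := by
  refine ⟨O.one_mem, by simpa using O.one_mem, ?_, ?_⟩ <;> simpa using Vv_zero O y K

lemma Near_inv {u : ℂˣ} (h : Near O y K u) : Near O y K u⁻¹ := by
  obtain ⟨h1, h2, h3, h4⟩ := h
  refine ⟨h2, by simpa using h1, h4, by simpa using h3⟩

lemma Near_mul {u v : ℂˣ} (hu : Near O y K u) (hv : Near O y K v) : Near O y K (u * v) := by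
  obtain ⟨h1, h2, h3, h4⟩ := hu
  obtain ⟨h5, h6, h7, h8⟩ := hv
  refine ⟨by simpa using O.mul_mem h1 h5, ?_, ?_, ?_⟩
  · rw [_root_.mul_inv_rev]
    simpa using O.mul_mem h6 h2
  · have : ((u * v : ℂˣ) : ℂ) - 1 = (u : ℂ) * ((v : ℂ) - 1) + ((u : ℂ) - 1) := by
      simp only [Units.val_mul]
      ring
    rw [this]
    exact Vv_add O y (Vv_mul' O y h7 h1) h3
  · rw [_root_.mul_inv_rev]
    have : ((v⁻¹ * u⁻¹ : ℂˣ) : ℂ) - 1 =
        ((v⁻¹ : ℂˣ) : ℂ) * (((u⁻¹ : ℂˣ) : ℂ) - 1) + (((v⁻¹ : ℂˣ) : ℂ) - 1) := by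
      simp only [Units.val_mul]
      ring
    rw [this]
    exact Vv_add O y (Vv_mul' O y h4 h6) h8

lemma Near_prod {ι : Type*} (s : Finset ι) (f : ι → ℂˣ) (h : ∀ i ∈ s, Near O y K (f i)) :
    Near O y K (∏ i ∈ s, f i) :=
  Finset.prod_induction f (Near O y K) (fun _ _ => Near_mul) Near_one h

lemma Near_sub {u v : ℂˣ} (hu : Near O y K u) (hv : Near O y K v) :
    Vv O y K ((v : ℂ) - u) := by
  have : (v : ℂ) - u = ((v : ℂ) - 1) + -((u : ℂ) - 1) := by ring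
  rw [this]
  exact Vv_add O y hv.2.2.1 (Vv_neg O y hu.2.2.1)

end near

/-- An intertwiner of congruent triangular matrices is integral. -/
lemma Cj_glo {r : ℕ} {O : Subring ℂ} {y : ℂ} (hy : y ∈ O) {K : ℕ} (hK : r ≤ K)
    (X B B' : GLr ℂ r) (hX : X ∈ Bp ℂ r) (hB : B ∈ Bp ℂ r) (hB' : B' ∈ Bp ℂ r) (q : Fin r → ℂ)
    (h1 : ∀ i, B.1 i i = q i) (h2 : ∀ i, B'.1 i i = q i)
    (hBO : ∀ i j, B.1 i j ∈ O) (hBO' : ∀ i j, B'.1 i j ∈ O)
    (hdiff : ∀ i j, i ≠ j → q j - q i ≠ 0 ∧ ∃ w ∈ O, y = (q j - q i) * w)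
    (ζ : Fin r → ℂˣ) (hζ : ∀ i, Near O y K (ζ i)) (hXd : ∀ i, X.1 i i = ζ i)
    (hc : ∀ i j, Vv O y K (B.1 i j - B'.1 i j))
    (heq : X * B' = B * X) : X ∈ GLO O r := by
  have hXi : ∀ i, (X⁻¹).1 i i = ((ζ i)⁻¹ : ℂˣ) := by
    intro i
    have h3 := diag_mul_inv_Bp hX i
    rw [hXd] at h3
    have h4 : ((ζ i : ℂˣ) : ℂ) * (((ζ i)⁻¹ : ℂˣ) : ℂ) = 1 := (ζ i).mul_inv
    exact mul_left_cancel₀ (ζ i).ne_zero (h3.trans h4.symm)
  constructor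
  · apply entries_int O y hy K hK X.1 B.1 B'.1 hX hB hB' q h1 h2 hBO hBO' hdiff
    · intro i
      rw [hXd]
      exact (hζ i).1
    · intro i j
      rw [hXd, hXd]
      exact Near_sub (hζ i) (hζ j)
    · exact hc
    · exact congrArg (fun g : GLr ℂ r => g.1) heq
  · apply entries_int O y hy K hK (X⁻¹).1 B'.1 B.1 (inv_mem hX) hB' hB q h2 h1 hBO' hBO hdiff
    · intro i
      rw [hXi]
      exact (hζ i).2.1
    · intro i j
      rw [hXi, hXi]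
      exact Near_sub (Near_inv (hζ i)) (Near_inv (hζ j))
    · intro i j
      have := Vv_neg O y (hc i j)
      rwa [neg_sub] at this
    · have h5 : X⁻¹ * B = B' * X⁻¹ := by
        have h6 : B = X * B' * X⁻¹ := by rw [heq]; group
        rw [h6]
        group
      exact congrArg (fun g : GLr ℂ r => g.1) h5

variable {R A : Type*} [CommRing R] [CommRing A] {n s b : ℕ}

section glue

variable (I : Inp R n s b) (hm : 4 ≤ mm s b) (ι₁ ι₂ : R →+* A)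
  (ha : ∀ k, k ≤ s → ∀ i, ι₁ (I.a k i) = ι₂ (I.a k i))
  (hdA : ∀ k, k ≤ s → ∀ i i', i ≠ i' → IsUnit (ι₁ (I.a k i) - ι₁ (I.a k i')))
  (τ κ : Fin (n + 2) → Aˣ)
  (e : A →+* ℂ) {O : Subring ℂ} {y : ℂ} {K : ℕ} (hy : y ∈ O) (hK : n + 2 ≤ K)
  (hO₁ : ∀ x, e (ι₁ x) ∈ O) (hO₂ : ∀ x, e (ι₂ x) ∈ O)
  (hcong : ∀ x, Vv O y K (e (ι₁ x) - e (ι₂ x)))
  (hτ : ∀ i, Near O y K (Units.map (e : A →* ℂ) (τ i)))
  (hκ : ∀ i, Near O y K (Units.map (e : A →* ℂ) (κ i)))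
  (hdiff : ∀ k, k ≤ s → ∀ i j, i ≠ j → e (ι₁ (I.a k i)) - e (ι₁ (I.a k j)) ≠ 0 ∧
    ∃ w ∈ O, y = (e (ι₁ (I.a k i)) - e (ι₁ (I.a k j))) * w)

include hO₁ in
lemma glo_map₁ (g : GLr R (n + 2)) : GLmap e (GLmap ι₁ g) ∈ GLO O (n + 2) := by
  constructor
  · intro i j
    exact hO₁ _
  · intro i j
    rw [← map_inv, ← map_inv]
    exact hO₁ _

include hO₂ in
lemma glo_map₂ (g : GLr R (n + 2)) : GLmap e (GLmap ι₂ g) ∈ GLO O (n + 2) := by
  constructor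
  · intro i j
    exact hO₂ _
  · intro i j
    rw [← map_inv, ← map_inv]
    exact hO₂ _

include hy hK hO₁ hO₂ hcong hτ hdiff in
lemma glo_gQ : GLmap e (gQ I hm ι₁ ι₂ τ ha hdA) ∈ GLO O (n + 2) := by
  have hG1 := glo_map₁ ι₁ e hO₁ (HH I hm).1
  have hG2 := glo_map₂ ι₂ e hO₂ (HH I hm).1
  have hdgH : ∀ i, (HH I hm).1.1 i i = ((I.a s i)⁻¹ : Rˣ) := by
    intro i
    have := congrFun (dg_HH_eq I hm) i
    exact congrArg (fun u : Rˣ => (u : R)) this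
  have hq2 : ∀ i, ι₂ ((HH I hm).1.1 i i) = ι₁ ((HH I hm).1.1 i i) := by
    intro i
    have := congrFun (dg_mapB_HH₂ I hm ι₁ ι₂ ha) i
    exact congrArg (fun u : Aˣ => (u : A)) this
  have hq3 : ∀ i, (GLmap e (GLmap ι₂ (HH I hm).1)).1 i i = e (ι₁ ((HH I hm).1.1 i i)) := by
    intro i
    show e (ι₂ _) = _
    rw [hq2]
  apply Cj_glo hy hK (GLmap e (gQ I hm ι₁ ι₂ τ ha hdA)) (GLmap e (GLmap ι₁ (HH I hm).1))
    (GLmap e (GLmap ι₂ (HH I hm).1)) (GLmap_Bp e (gQ_mem I hm ι₁ ι₂ ha hdA τ))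
    (GLmap_Bp e (GLmap_Bp ι₁ (HH I hm).2)) (GLmap_Bp e (GLmap_Bp ι₂ (HH I hm).2))
    (fun i => e (ι₁ ((HH I hm).1.1 i i))) (fun i => rfl) hq3 hG1.1 hG2.1 ?_
    (fun i => Units.map (e : A →* ℂ) (τ i)) hτ ?_ ?_ ?_
  · intro i j hij
    have hαβ : ∀ i, e (ι₁ (I.a s i)) * e (ι₁ ((HH I hm).1.1 i i)) = 1 := by
      intro i
      rw [hdgH, ← map_mul, ← map_mul, Units.mul_inv, map_one, map_one]
    obtain ⟨h1, w, hw, h2⟩ := hdiff s le_rfl i j hij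
    have h3 : e (ι₁ (I.a s i)) - e (ι₁ (I.a s j)) =
        e (ι₁ (I.a s i)) * e (ι₁ (I.a s j)) *
          (e (ι₁ ((HH I hm).1.1 j j)) - e (ι₁ ((HH I hm).1.1 i i))) := by
      linear_combination (-e (ι₁ (I.a s i))) * hαβ j + e (ι₁ (I.a s j)) * hαβ i
    constructor
    · intro h4
      apply h1
      rw [h3, h4, mul_zero]
    · refine ⟨e (ι₁ (I.a s i)) * e (ι₁ (I.a s j)) * w,
        O.mul_mem (O.mul_mem (hO₁ _) (hO₁ _)) hw, ?_⟩
      rw [h2, h3]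
      ring
  · intro i
    have := congrFun (dg_gQ I hm ι₁ ι₂ ha hdA τ) i
    exact congrArg (fun u : Aˣ => e (u : A)) this
  · intro i j
    exact hcong _
  · have h5 := gQ_rel I hm ι₁ ι₂ ha hdA τ
    have h6 := congrArg (GLmap e) h5
    simpa only [map_mul] using h6

include hy hK hO₁ hO₂ hcong hκ hdiff in
lemma glo_gD : GLmap e (gD I hm ι₁ ι₂ κ ha hdA) ∈ GLO O (n + 2) := by
  have hG1 := glo_map₁ ι₁ e hO₁ (sBd I hm 0).1
  have hG2 := glo_map₂ ι₂ e hO₂ (sBd I hm 0).1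
  have hq2 : ∀ i, ι₂ ((sBd I hm 0).1.1 i i) = ι₁ ((sBd I hm 0).1.1 i i) := by
    intro i
    have := congrFun (dg_mapB_S₂ I hm ι₁ ι₂ ha) i
    exact congrArg (fun u : Aˣ => (u : A)) this
  have hdg : ∀ i, (sBd I hm 0).1.1 i i = I.a (s - 1 - 0) i := by
    intro i
    have := congrFun (dg_sBd I hm 0) i
    exact congrArg (fun u : Rˣ => (u : R)) this
  have hq3 : ∀ i, (GLmap e (GLmap ι₂ (sBd I hm 0).1)).1 i i = e (ι₁ ((sBd I hm 0).1.1 i i)) := by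
    intro i
    show e (ι₂ _) = _
    rw [hq2]
  apply Cj_glo hy hK (GLmap e (gD I hm ι₁ ι₂ κ ha hdA)) (GLmap e (GLmap ι₂ (sBd I hm 0).1))
    (GLmap e (GLmap ι₁ (sBd I hm 0).1)) (GLmap_Bp e (gD_mem I hm ι₁ ι₂ ha hdA κ))
    (GLmap_Bp e (GLmap_Bp ι₂ (sBd I hm 0).2)) (GLmap_Bp e (GLmap_Bp ι₁ (sBd I hm 0).2))
    (fun i => e (ι₁ ((sBd I hm 0).1.1 i i))) hq3 (fun i => rfl) hG2.1 hG1.1 ?_
    (fun i => Units.map (e : A →* ℂ) (κ i)) hκ ?_ ?_ ?_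
  · intro i j hij
    simp only [hdg]
    exact hdiff _ (by omega) j i hij.symm
  · intro i
    have := congrFun (dg_gD I hm ι₁ ι₂ ha hdA κ) i
    exact congrArg (fun u : Aˣ => e (u : A)) this
  · intro i j
    have := Vv_neg O y (hcong ((sBd I hm 0).1.1 i j))
    rwa [neg_sub] at this
  · have h5 := gD_rel I hm ι₁ ι₂ ha hdA κ
    have h6 := congrArg (GLmap e) h5
    simpa only [map_mul] using h6

include hy hK hO₁ hO₂ hcong hκ hdiff in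
lemma glo_gT : GLmap e (gT I hm ι₁ ι₂ κ ha hdA) ∈ GLO O (n + 2) := by
  simp only [gT, map_mul, map_inv]
  exact mul_mem (mul_mem (glo_map₂ ι₂ e hO₂ _)
    (glo_gD I hm ι₁ ι₂ ha hdA κ e hy hK hO₁ hO₂ hcong hκ hdiff))
    (inv_mem (glo_map₁ ι₁ e hO₁ _))

include hy hK hO₁ hO₂ hcong hτ hκ hdiff in
/-- The generators are integral. -/
theorem glo_gensC (x : Gens (2 * b + s) 0) :
    GLmap e (gensC I hm ι₁ ι₂ τ κ ha hdA x) ∈ GLO O (n + 2) := by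
  have hQ := glo_gQ I hm ι₁ ι₂ ha hdA τ e hy hK hO₁ hO₂ hcong hτ hdiff
  have hT := glo_gT I hm ι₁ ι₂ ha hdA κ e hy hK hO₁ hO₂ hcong hκ hdiff
  rcases x with k | k | j
  · simp only [gensC, AAc]
    split_ifs with h1 h2
    · exact glo_map₁ ι₁ e hO₁ _
    · exact glo_map₁ ι₁ e hO₁ _
    · simp only [map_mul, map_inv]
      exact mul_mem (mul_mem hQ (glo_map₂ ι₂ e hO₂ _)) (inv_mem hQ)
  · simp only [gensC, BBc]
    split_ifs with h1 h2
    · exact glo_map₁ ι₁ e hO₁ _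
    · simp only [map_mul]
      exact mul_mem hQ hT
    · simp only [map_mul, map_inv]
      exact mul_mem (mul_mem hQ (glo_map₂ ι₂ e hO₂ _)) (inv_mem hQ)
  · exact j.elim0

end glue

end Vale.Agent.Lib.P002.Surf
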