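import Mathlib
import Vale.Agent.Lib.P002.Closed.IntG

set_option linter.unusedSectionVars false
set_option linter.unusedVariables false
set_option linter.unusedSimpArgs false
set_option linter.unnecessarySeqFocus false

namespace Vale.Agent.Lib.P002.Surf

open Matrix

/-- The quadratic field. -/
noncomputable def L₀ : IntermediateField ℚ ℂ := IntermediateField.adjoin ℚ {s2}

lemma s2_mem_L₀ : s2 ∈ L₀ := IntermediateField.subset_adjoin ℚ _ rfl

lemma finiteDimensional_L₀ : FiniteDimensional ℚ L₀ := by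
  apply IntermediateField.finiteDimensional_adjoin
  intro x hx
  rw [Set.mem_singleton_iff.mp hx]
  exact s2_integral.tower_top

/-- The ring of integers of the quadratic field. -/
noncomputable abbrev O₀ : Subring ℂ := ints L₀

/-- The eigenvalue parameters. -/
abbrev Ip (n s : ℕ) := Fin (s + 1) × Fin (n + 1)
/-- The parameters of one copy. -/
abbrev Ic (n s b : ℕ) := Ip n s ⊕ ParIdx n s b
/-- The twist parameters. -/
abbrev Iw (n s : ℕ) := Fin (s + 1) × Fin (n + 1)
/-- The parameters other than the eigenvalues. -/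
abbrev Ir (n s b : ℕ) := ParIdx n s b ⊕ ParIdx n s b ⊕ Iw n s
/-- All the parameters. -/
abbrev Ib (n s b : ℕ) := Ip n s ⊕ Ir n s b

/-- The coordinates of the first copy. -/
def j₁ {n s b : ℕ} : Ic n s b → Ib n s b := Sum.elim Sum.inl (fun u => Sum.inr (Sum.inl u))
/-- The coordinates of the second copy. -/
def j₂ {n s b : ℕ} : Ic n s b → Ib n s b := Sum.elim Sum.inl (fun u => Sum.inr (Sum.inr (Sum.inl u)))

/-- The eigenvalues as a function of the parameters. -/
def aV {n s : ℕ} (p : Ip n s → ℂˣ) (k : Fin (s + 1)) : Fin (n + 2) → ℂˣ :=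
  snocZ (fun q => p (k, q)) 1

lemma map_snocZ {R S : Type*} [CommRing R] [CommRing S] {n : ℕ} (f : R →+* S)
    (t : Fin (n + 1) → Rˣ) (c : Rˣ) :
    mapZ f (snocZ t c) = snocZ (fun i => Units.map (f : R →* S) (t i)) (Units.map (f : R →* S) c) := by
  funext i
  induction i using Fin.lastCases with
  | last =>
    simp [mapZ, snocZ]
  | cast i =>
    simp [mapZ, snocZ]

variable {n s b : ℕ}

/-- The eigenvalues, over the ring of the chart. -/
noncomputable def aUc (k : Fin (s + 1)) : Fin (n + 2) → (LRing O₀ (Ic n s b))ˣ :=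
  snocZ (fun q => tU (Sum.inl (k, q))) 1

lemma ev_aUc (t : Ic n s b → ℂˣ) (k : Fin (s + 1)) (i : Fin (n + 2)) :
    ev t ((aUc k i : (LRing O₀ (Ic n s b))ˣ) : LRing O₀ (Ic n s b)) =
      (aV (fun x => t (Sum.inl x)) k i : ℂˣ) := by
  have h := congrFun (map_snocZ (ev (O := O₀) t) (fun q => tU (Sum.inl (k, q))) 1) i
  have h2 := congrArg (fun u : ℂˣ => (u : ℂ)) h
  refine h2.trans ?_
  congr 2

/-- The input data of one copy. -/
noncomputable def cInp (n s b : ℕ) : Inp (LRing O₀ (Ic n s b)) n s b where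
  cl := fun i l j => if h : 1 ≤ i ∧ i ≤ mm s b - 2 ∧ l ≤ n ∧ j < l then
      tU (Sum.inr (Sum.inl (⟨i - 1, by omega⟩, ⟨⟨l, by omega⟩, ⟨j, h.2.2.2⟩⟩))) else 1
  tp := fun i q => if h : 3 ≤ i ∧ i ≤ mm s b - 2 ∧ q ≤ n then
      tU (Sum.inr (Sum.inr (Sum.inl (⟨i - 3, by omega⟩, ⟨q, by omega⟩)))) else 1
  zf := fun k q => if h : k < 2 * b then tU (Sum.inr (Sum.inr (Sum.inr (⟨k, h⟩, q)))) else 1
  a := fun k i => if h : k < s + 1 then aUc ⟨k, h⟩ i else 1
  hprod := fun k => by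
    by_cases h : k < s + 1
    · simp only [h, dif_pos]
      exact prod_snocZ _ _
    · simp [h]

lemma cInp_a (k : ℕ) (hk : k ≤ s) (i : Fin (n + 2)) :
    (cInp n s b).a k i = aUc ⟨k, by omega⟩ i := by
  simp only [cInp]
  rw [dif_pos (by omega)]

/-- Composition of Laurent functions with a map of coordinates. -/
lemma isLaurentFn_comp {J Ι : Type} [Fintype Ι] {O : Subring ℂ} (j : J → Ι) (x : LRing O J) :
    IsLaurentFn (fun t : Ι → ℂˣ => x.1 (fun i => t (j i))) := by
  classical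
  obtain ⟨x, hx⟩ := x
  show IsLaurentFn (fun t : Ι → ℂˣ => x (fun i => t (j i)))
  induction hx using Subring.closure_induction with
  | mem x hx =>
    rcases hx with ((⟨y, rfl⟩ | ⟨i, rfl⟩) | ⟨i, rfl⟩)
    · exact IsLaurentFn.const _
    · exact IsLaurentFn.coord (j i)
    · exact IsLaurentFn.inv_coord (j i)
  | zero => exact IsLaurentFn.const 0
  | one => exact IsLaurentFn.const 1
  | add x y _ _ hx hy => exact hx.add hy
  | neg x _ hx => exact hx.neg
  | mul x y _ _ hx hy => exact hx.mul hy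

/-- The indices of the differences of eigenvalues. -/
abbrev L₁ (n s : ℕ) := Fin (s + 1) × Fin (n + 2) × Fin (n + 2)

/-- The differences of eigenvalues. -/
noncomputable def h₁ (n s b : ℕ) (l : L₁ n s) (t : Ib n s b → ℂˣ) : ℂ :=
  if l.2.1 = l.2.2 then 1 else
    ((aV (fun x => t (Sum.inl x)) l.1 l.2.1 : ℂˣ) : ℂ) - (aV (fun x => t (Sum.inl x)) l.1 l.2.2 : ℂˣ)

lemma aV_eq_x (k : Fin (s + 1)) (i : Fin (n + 2)) (t : Ib n s b → ℂˣ) :
    ((aV (fun x => t (Sum.inl x)) k i : ℂˣ) : ℂ) =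
      ((aUc k i : (LRing O₀ (Ic n s b))ˣ) : LRing O₀ (Ic n s b)).1 (fun i => t (j₁ i)) :=
  (ev_aUc (fun i => t (j₁ i)) k i).symm

lemma hL₁ (l : L₁ n s) : IsLaurentFn (h₁ n s b l) := by
  unfold h₁
  by_cases h : l.2.1 = l.2.2
  · simp only [h, if_true]
    exact IsLaurentFn.const 1
  · simp only [h, if_false, aV_eq_x, sub_eq_add_neg]
    exact (isLaurentFn_comp j₁ _).add (isLaurentFn_comp j₁ _).neg

/-- The denominator of the chart. -/
noncomputable abbrev E₁ (n s b : ℕ) : MvPolynomial (Ib n s b) ℂ := famD (h₁ n s b) hL₁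

/-- The coefficient ring of the chart. -/
noncomputable abbrev A₁ (n s b : ℕ) := RatRing (E₁ n s b)

/-- The map to the coefficient ring given by a choice of coordinates. -/
noncomputable def iota (j : Ic n s b → Ib n s b) : LRing O₀ (Ic n s b) →+* A₁ n s b where
  toFun x := ⟨fun t => x.1 (fun i => t.1 (j i)), laurent_mem (h₁ n s b) hL₁ (isLaurentFn_comp j x)⟩
  map_one' := rfl
  map_mul' _ _ := rfl
  map_zero' := rfl
  map_add' _ _ := rfl

lemma evR_iota (j : Ic n s b → Ib n s b) (t : DomT (E₁ n s b)) (x : LRing O₀ (Ic n s b)) :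
    evR (E₁ n s b) t (iota j x) = ev (fun i => t.1 (j i)) x := rfl

lemma iota_a (k : ℕ) (hk : k ≤ s) (i : Fin (n + 2)) :
    (iota j₁ ((cInp n s b).a k i : LRing O₀ (Ic n s b)) : A₁ n s b) =
      iota j₂ ((cInp n s b).a k i : LRing O₀ (Ic n s b)) := by
  rw [cInp_a k hk]
  apply Subtype.ext
  funext t
  show ev (fun i => t.1 (j₁ i)) _ = ev (fun i => t.1 (j₂ i)) _
  rw [ev_aUc, ev_aUc]
  rfl

lemma evR_iota_a (j : Ic n s b → Ib n s b) (hj : ∀ x, j (Sum.inl x) = Sum.inl x)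
    (t : DomT (E₁ n s b)) (k : ℕ) (hk : k ≤ s) (i : Fin (n + 2)) :
    evR (E₁ n s b) t (iota j ((cInp n s b).a k i : LRing O₀ (Ic n s b))) =
      (aV (fun x => t.1 (Sum.inl x)) ⟨k, by omega⟩ i : ℂˣ) := by
  rw [evR_iota, cInp_a k hk, ev_aUc]
  simp only [hj]

lemma iota_diff_unit (k : ℕ) (hk : k ≤ s) (i i' : Fin (n + 2)) (hi : i ≠ i') :
    IsUnit ((iota j₁ ((cInp n s b).a k i : LRing O₀ (Ic n s b)) : A₁ n s b) -
      iota j₁ ((cInp n s b).a k i' : LRing O₀ (Ic n s b))) := by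
  have hm := laurent_mem (h₁ n s b) hL₁ (hL₁ ((⟨k, by omega⟩, i, i') : L₁ n s))
  have e : (iota j₁ ((cInp n s b).a k i : LRing O₀ (Ic n s b)) : A₁ n s b) -
      iota j₁ ((cInp n s b).a k i' : LRing O₀ (Ic n s b)) =
      ((famU (h₁ n s b) hL₁ ((⟨k, by omega⟩, i, i') : L₁ n s) hm : (A₁ n s b)ˣ) : A₁ n s b) := by
    apply Subtype.ext
    funext t
    show evR (E₁ n s b) t (iota j₁ _) - evR (E₁ n s b) t (iota j₁ _) = h₁ n s b _ t.1
    rw [evR_iota_a j₁ (fun _ => rfl) t k hk, evR_iota_a j₁ (fun _ => rfl) t k hk]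
    simp [h₁, hi]
  rw [e]
  exact Units.isUnit _

/-- The coordinates, as units of the coefficient ring. -/
noncomputable def coordU (x : Ib n s b) : (A₁ n s b)ˣ := by
  classical
  exact
  { val := ⟨fun t => ((t.1 x : ℂˣ) : ℂ), laurent_mem (h₁ n s b) hL₁ (IsLaurentFn.coord x)⟩
    inv := ⟨fun t => (((t.1 x)⁻¹ : ℂˣ) : ℂ), laurent_mem (h₁ n s b) hL₁ (IsLaurentFn.inv_coord x)⟩
    val_inv := by
      apply Subtype.ext
      funext t
      show ((t.1 x : ℂˣ) : ℂ) * (((t.1 x)⁻¹ : ℂˣ) : ℂ) = 1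
      simp
    inv_val := by
      apply Subtype.ext
      funext t
      show (((t.1 x)⁻¹ : ℂˣ) : ℂ) * ((t.1 x : ℂˣ) : ℂ) = 1
      simp }

lemma evR_coordU (t : DomT (E₁ n s b)) (x : Ib n s b) :
    Units.map (evR (E₁ n s b) t : A₁ n s b →* ℂ) (coordU x) = t.1 x := by
  apply Units.ext
  rfl

/-- The twist coordinates. -/
def tw (k : Fin (s + 1)) (q : Fin (n + 1)) : Ib n s b := Sum.inr (Sum.inr (Sum.inr (k, q)))

/-- The twist of the base gluing, normalised by its last coordinate. -/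
noncomputable def τU : Fin (n + 2) → (A₁ n s b)ˣ :=
  Fin.snoc (α := fun _ => (A₁ n s b)ˣ) (fun q => coordU (tw 0 q)) 1

/-- The twist of the spike gluing. -/
noncomputable def κU : Fin (n + 2) → (A₁ n s b)ˣ :=
  snocZ (fun q => coordU (tw (Fin.last s) q)) (∏ i, (τU i : (A₁ n s b)ˣ))⁻¹

lemma prod_τU_κU : (∏ i, (τU i : (A₁ n s b)ˣ)) * ∏ i, (κU i : (A₁ n s b)ˣ) = 1 := by
  simp only [κU]
  rw [prod_snocZ]
  simp

section data

variable (hm : 4 ≤ mm s b)

/-- The generators of the closed surface over the coefficient ring. -/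
noncomputable def gensA : Gens (2 * b + s) 0 → GLr (A₁ n s b) (n + 2) :=
  gensC (cInp n s b) hm (iota j₁) (iota j₂) τU κU iota_a iota_diff_unit

lemma gensA_det (x : Gens (2 * b + s) 0) : gdet (gensA (n := n) hm x) = 1 :=
  gensC_det _ hm _ _ iota_a iota_diff_unit τU κU prod_τU_κU x

/-- The representation at a point of the torus. -/
noncomputable def chi0 (t : DomT (E₁ n s b)) : RepData (n + 2) (2 * b + s) 0 :=
  fun x => toSL (GLmap (evR (E₁ n s b) t) (gensA hm x)) (gdet_GLmap _ _ (gensA_det hm x))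

lemma slGL_chi0 (t : DomT (E₁ n s b)) (x : Gens (2 * b + s) 0) :
    slGL (chi0 hm t x) = GLmap (evR (E₁ n s b) t) (gensA hm x) := slGL_toSL _ _

lemma point_chi0 (t : DomT (E₁ n s b)) (p : Var (n + 2) (2 * b + s) 0) :
    point (chi0 hm t) p = evR (E₁ n s b) t ((gensA hm p.1).1 p.2.1 p.2.2) := rfl

theorem chi0_relation (hs : s ≤ 1) (t : DomT (E₁ n s b)) : SurfaceRelation (chi0 hm t) := by
  apply slGL_injective
  rw [map_mul, map_list_prod, map_list_prod, List.map_ofFn, List.map_ofFn, map_one]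
  have h := congrArg (GLmap (evR (E₁ n s b) t))
    (gensC_relation (cInp n s b) hm (iota j₁) (iota j₂) iota_a iota_diff_unit τU κU hs)
  rw [map_list_prod, List.map_ofFn, map_one] at h
  simp only [List.ofFn_zero, List.prod_nil, mul_one]
  rw [← h]
  congr 2
  funext i
  simp only [Function.comp, map_mul, map_inv, slGL_chi0]
  rfl

end data

end Vale.Agent.Lib.P002.Surf
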