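import Mathlib
import Vale.Agent.Lib.P002.Surf.Defs

namespace Vale.Agent.Lib.P002.Surf

/-- The representation has no invariant subspace other than `0` and the whole space. -/
def IsIrreducibleRep {r g s : ℕ} (ρ : RepData r g s) : Prop :=
  ∀ V : Submodule ℂ (Fin r → ℂ),
    (∀ (k : Gens g s) (v : Fin r → ℂ), v ∈ V →
      Matrix.mulVec (ρ k : Matrix (Fin r) (Fin r) ℂ) v ∈ V) → V = ⊥ ∨ V = ⊤

/-- No product of `d` eigenvalues (with repetition) from each boundary class is `1`, for `0 < d < r`.
This is the usual non-resonance condition, which rules out invariant subspaces of dimension `d`. -/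
def NonResonant {r s : ℕ} (a : Fin s → Fin r → ℂ) : Prop :=
  ∀ (m : Fin s → Fin r → ℕ) (d : ℕ), 0 < d → d < r → (∀ j, ∑ i, m j i = d) →
    ∏ j, ∏ i, a j i ^ m j i ≠ 1

end Vale.Agent.Lib.P002.Surf
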