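import Mathlib
import Vale.Agent.Lib.P002.Closed.Chart

set_option linter.unusedSectionVars false
set_option linter.unusedVariables false
set_option linter.unusedSimpArgs false
set_option linter.unnecessarySeqFocus false

namespace Vale.Agent.Lib.P002.Surf

open Matrix

variable {n s b : ℕ}

/-- The product of all the differences of eigenvalues. -/
noncomputable def yOf (t : Ib n s b → ℂˣ) : ℂ := ∏ l, h₁ n s b l t

lemma aV_mem (p : Ip n s → ℂˣ) (hp : ∀ x, ((p x : ℂˣ) : ℂ) ∈ O₀ ∧ (((p x)⁻¹ : ℂˣ) : ℂ) ∈ O₀)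
    (k : Fin (s + 1)) (i : Fin (n + 2)) : ((aV p k i : ℂˣ) : ℂ) ∈ O₀ := by
  let t : Ic n s 0 → ℂˣ := Sum.elim p (fun _ => 1)
  have h1 := ev_mem (O := O₀) (t := t) (fun x => by
    rcases x with x | x
    · exact hp x
    · simp [t])
    ((aUc k i : (LRing O₀ (Ic n s 0))ˣ) : LRing O₀ (Ic n s 0))
  rw [ev_aUc] at h1
  exact h1

lemma h₁_mem (t : Ib n s b → ℂˣ)
    (hp : ∀ x, ((t (Sum.inl x) : ℂˣ) : ℂ) ∈ O₀ ∧ (((t (Sum.inl x))⁻¹ : ℂˣ) : ℂ) ∈ O₀)
    (l : L₁ n s) : h₁ n s b l t ∈ O₀ := by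
  unfold h₁
  split_ifs
  · exact O₀.one_mem
  · exact O₀.sub_mem (aV_mem _ hp _ _) (aV_mem _ hp _ _)

section integrality

variable (hm : 4 ≤ mm s b)

theorem chi0_integral (t : DomT (E₁ n s b))
    (hp : ∀ x, ((t.1 (Sum.inl x) : ℂˣ) : ℂ) ∈ O₀ ∧ (((t.1 (Sum.inl x))⁻¹ : ℂˣ) : ℂ) ∈ O₀)
    (hu : ∀ x, Near O₀ (yOf t.1) (n + 2) (t.1 (Sum.inr x))) :
    IsOLPoint L₀ (chi0 hm t) := by
  have hy : yOf t.1 ∈ O₀ := prod_mem fun l _ => h₁_mem t.1 hp l
  have hc₁ : ∀ i : Ic n s b, ((t.1 (j₁ i) : ℂˣ) : ℂ) ∈ O₀ ∧ (((t.1 (j₁ i))⁻¹ : ℂˣ) : ℂ) ∈ O₀ := by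
    rintro (x | x)
    · exact hp x
    · exact ⟨(hu _).1, (hu _).2.1⟩
  have hc₂ : ∀ i : Ic n s b, ((t.1 (j₂ i) : ℂˣ) : ℂ) ∈ O₀ ∧ (((t.1 (j₂ i))⁻¹ : ℂˣ) : ℂ) ∈ O₀ := by
    rintro (x | x)
    · exact hp x
    · exact ⟨(hu _).1, (hu _).2.1⟩
  have hO₁ : ∀ x, evR (E₁ n s b) t (iota j₁ x) ∈ O₀ := fun x => ev_mem hc₁ x
  have hO₂ : ∀ x, evR (E₁ n s b) t (iota j₂ x) ∈ O₀ := fun x => ev_mem hc₂ x
  have hcong : ∀ x, Vv O₀ (yOf t.1) (n + 2)
      (evR (E₁ n s b) t (iota j₁ x) - evR (E₁ n s b) t (iota j₂ x)) := by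
    intro x
    apply ev_cong _ _ hc₁ hc₂
    · rintro (x | x)
      · simpa [j₁, j₂] using Vv_zero O₀ (yOf t.1) (n + 2)
      · exact Near_sub (hu _) (hu _)
    · rintro (x | x)
      · simpa [j₁, j₂] using Vv_zero O₀ (yOf t.1) (n + 2)
      · exact Near_sub (Near_inv (hu _)) (Near_inv (hu _))
  have hτ : ∀ i, Near O₀ (yOf t.1) (n + 2)
      (Units.map (evR (E₁ n s b) t : A₁ n s b →* ℂ) (τU i)) := by
    intro i
    induction i using Fin.lastCases with
    | last =>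
      simp only [τU, Fin.snoc_last, map_one]
      exact Near_one
    | cast q =>
      simp only [τU, Fin.snoc_castSucc]
      rw [evR_coordU]
      exact hu _
  have hκ : ∀ i, Near O₀ (yOf t.1) (n + 2)
      (Units.map (evR (E₁ n s b) t : A₁ n s b →* ℂ) (κU i)) := by
    intro i
    have h1 := congrFun (map_snocZ (evR (E₁ n s b) t) (fun q => coordU (tw (Fin.last s) q))
      (∏ i, (τU i : (A₁ n s b)ˣ))⁻¹) i
    have h2 : Units.map (evR (E₁ n s b) t : A₁ n s b →* ℂ) (κU i) = _ := h1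
    rw [h2]
    induction i using Fin.lastCases with
    | last =>
      simp only [snocZ, Fin.snoc_last, div_eq_mul_inv]
      apply Near_mul
      · rw [map_inv, map_prod]
        exact Near_inv (Near_prod _ _ fun i _ => hτ i)
      · apply Near_inv
        apply Near_prod
        intro q _
        rw [evR_coordU]
        exact hu _
    | cast q =>
      simp only [snocZ, Fin.snoc_castSucc]
      rw [evR_coordU]
      exact hu _
  have hdiff : ∀ k, k ≤ s → ∀ i j, i ≠ j →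
      evR (E₁ n s b) t (iota j₁ ((cInp n s b).a k i : LRing O₀ (Ic n s b))) -
        evR (E₁ n s b) t (iota j₁ ((cInp n s b).a k j : LRing O₀ (Ic n s b))) ≠ 0 ∧
      ∃ w ∈ O₀, yOf t.1 =
        (evR (E₁ n s b) t (iota j₁ ((cInp n s b).a k i : LRing O₀ (Ic n s b))) -
          evR (E₁ n s b) t (iota j₁ ((cInp n s b).a k j : LRing O₀ (Ic n s b)))) * w := by
    intro k hk i j hij
    have e : evR (E₁ n s b) t (iota j₁ ((cInp n s b).a k i : LRing O₀ (Ic n s b))) -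
        evR (E₁ n s b) t (iota j₁ ((cInp n s b).a k j : LRing O₀ (Ic n s b))) =
        h₁ n s b ((⟨k, by omega⟩, i, j) : L₁ n s) t.1 := by
      rw [evR_iota_a j₁ (fun _ => rfl) t k hk, evR_iota_a j₁ (fun _ => rfl) t k hk]
      simp [h₁, hij]
    rw [e]
    refine ⟨ne_of_famD _ _ t.2 _, ∏ l ∈ Finset.univ.erase ((⟨k, by omega⟩, i, j) : L₁ n s),
      h₁ n s b l t.1, prod_mem fun l _ => h₁_mem t.1 hp l, ?_⟩
    exact (Finset.mul_prod_erase _ _ (Finset.mem_univ _)).symm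
  intro p
  have h := glo_gensC (cInp n s b) hm (iota j₁) (iota j₂) iota_a iota_diff_unit τU κU
    (evR (E₁ n s b) t) hy le_rfl hO₁ hO₂ hcong hτ hκ hdiff p.1
  exact h.1 p.2.1 p.2.2

end integrality

/-! ### The grid -/

/-- The grid for the eigenvalue coordinates. -/
def gridX (x : Ip n s) : Set ℂˣ := Set.range fun v : ℕ => epsU ^ ((n + 2) * v + x.2.val + 1)

lemma gridX_infinite (x : Ip n s) : (gridX x).Infinite := by
  apply Set.infinite_range_of_injective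
  intro v v' h
  have h1 := epsU_pow_injective h
  have h2 : (n + 2) * v = (n + 2) * v' := by omega
  exact Nat.eq_of_mul_eq_mul_left (by omega) h2

lemma epsU_pow_ne_one {a : ℕ} (h : 1 ≤ a) : epsU ^ a ≠ 1 := by
  intro h1
  have h2 : epsU ^ a = epsU ^ 0 := by simpa using h1
  have := epsU_pow_injective h2
  omega

lemma aV_injective (p : Ip n s → ℂˣ) (hp : ∀ x, p x ∈ gridX x) (k : Fin (s + 1)) :
    Function.Injective (aV p k) := by
  have hp' : ∀ q : Fin (n + 1), ∃ v : ℕ, p (k, q) = epsU ^ ((n + 2) * v + q.val + 1) := by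
    intro q
    obtain ⟨v, hv⟩ := hp (k, q)
    exact ⟨v, hv.symm⟩
  choose v hv using hp'
  have hlast : aV p k (Fin.last (n + 1)) *
      epsU ^ (∑ q : Fin (n + 1), ((n + 2) * v q + q.val + 1)) = 1 := by
    rw [← Finset.prod_pow_eq_pow_sum]
    simp only [aV, snocZ, Fin.snoc_last]
    rw [Finset.prod_congr rfl fun q _ => (hv q).symm]
    simp
  have hcast : ∀ q, aV p k q.castSucc = epsU ^ ((n + 2) * v q + q.val + 1) := by
    intro q
    simp only [aV, snocZ, Fin.snoc_castSucc]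
    exact hv q
  have hne : ∀ q : Fin (n + 1), aV p k q.castSucc ≠ aV p k (Fin.last (n + 1)) := by
    intro q h
    rw [← h, hcast, ← pow_add] at hlast
    exact epsU_pow_ne_one (by omega) hlast
  intro i i' h
  induction i using Fin.lastCases with
  | last =>
    induction i' using Fin.lastCases with
    | last => rfl
    | cast q => exact absurd h.symm (hne q)
  | cast q =>
    induction i' using Fin.lastCases with
    | last => exact absurd h (hne q)
    | cast q' =>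
      rw [hcast, hcast] at h
      have h1 := epsU_pow_injective h
      have h2 : ((n + 2) * v q + (q.val + 1)) % (n + 2) = ((n + 2) * v q' + (q'.val + 1)) % (n + 2) := by
        rw [show (n + 2) * v q + (q.val + 1) = (n + 2) * v q' + (q'.val + 1) by omega]
      rw [Nat.mul_add_mod, Nat.mul_add_mod, Nat.mod_eq_of_lt (by omega), Nat.mod_eq_of_lt (by omega)] at h2
      congr 1
      apply Fin.ext
      omega

lemma h₁_ne (p : Ip n s → ℂˣ) (hp : ∀ x, p x ∈ gridX x) (u : Ir n s b → ℂˣ) (l : L₁ n s) :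
    h₁ n s b l (Sum.elim p u) ≠ 0 := by
  unfold h₁
  split_ifs with h
  · exact one_ne_zero
  · rw [sub_ne_zero]
    intro h2
    exact h (aV_injective (fun x => Sum.elim p u (Sum.inl x)) hp l.1 (Units.ext h2))

lemma mem_dom (p : Ip n s → ℂˣ) (hp : ∀ x, p x ∈ gridX x) (u : Ir n s b → ℂˣ) :
    evt (Sum.elim p u) (E₁ n s b) ≠ 0 := famD_ne_of _ _ fun l => h₁_ne p hp u l

/-- The product of the differences depends only on the eigenvalue coordinates. -/
noncomputable def yP (b : ℕ) (p : Ip n s → ℂˣ) : ℂ := yOf (b := b) (Sum.elim p fun _ => 1)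

lemma yOf_elim (p : Ip n s → ℂˣ) (u : Ir n s b → ℂˣ) : yOf (Sum.elim p u) = yP b p := rfl

lemma exists_M (b : ℕ) (p : Ip n s → ℂˣ) : ∃ M, 1 ≤ M ∧
    (yP b p ∈ O₀ → yP b p ≠ 0 → Vv O₀ (yP b p) (n + 2) (((epsU ^ M : ℂˣ) : ℂ) - 1)) := by
  by_cases h : yP b p ∈ O₀ ∧ yP b p ≠ 0
  · obtain ⟨M, h1, h2⟩ := exists_pow_cong L₀ s2_mem_L₀ h.1 h.2 (n + 2)
    exact ⟨M, h1, fun _ _ => h2⟩
  · exact ⟨1, le_rfl, fun h1 h2 => absurd ⟨h1, h2⟩ h⟩

/-- The exponent for the congruence. -/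
noncomputable def Mof (b : ℕ) (p : Ip n s → ℂˣ) : ℕ := (exists_M b p).choose

lemma Mof_pos (b : ℕ) (p : Ip n s → ℂˣ) : 1 ≤ Mof b p := (exists_M b p).choose_spec.1

lemma Mof_spec (b : ℕ) (p : Ip n s → ℂˣ) (h1 : yP b p ∈ O₀) (h2 : yP b p ≠ 0) :
    Vv O₀ (yP b p) (n + 2) (((epsU ^ Mof b p : ℂˣ) : ℂ) - 1) :=
  (exists_M b p).choose_spec.2 h1 h2

/-- The grid of the other coordinates. -/
def gridS (b : ℕ) (p : Ip n s → ℂˣ) : Set ℂˣ := Set.range fun v : ℕ => (epsU ^ Mof b p) ^ v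

lemma gridS_infinite (b : ℕ) (p : Ip n s → ℂˣ) : (gridS b p).Infinite := by
  apply Set.infinite_range_of_injective
  intro v v' h
  simp only [← pow_mul] at h
  have h1 := epsU_pow_injective h
  exact Nat.eq_of_mul_eq_mul_left (Mof_pos b p) h1

lemma gridX_mem {x : Ip n s} {u : ℂˣ} (hu : u ∈ gridX x) :
    (u : ℂ) ∈ O₀ ∧ ((u⁻¹ : ℂˣ) : ℂ) ∈ O₀ := by
  obtain ⟨v, rfl⟩ := hu
  exact epsU_pow_mem' L₀ s2_mem_L₀ _

lemma gridS_near (p : Ip n s → ℂˣ) (hp : ∀ x, p x ∈ gridX x) {u : ℂˣ} (hu : u ∈ gridS b p) :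
    Near O₀ (yP b p) (n + 2) u := by
  obtain ⟨v, rfl⟩ := hu
  have h0 : yP b p ≠ 0 := by
    apply Finset.prod_ne_zero_iff.mpr
    intro l _
    exact h₁_ne p hp _ l
  have h1 : yP b p ∈ O₀ := by
    apply prod_mem
    intro l _
    exact h₁_mem _ (fun x => gridX_mem (hp x)) l
  have h2 := pow_cong_closed L₀ s2_mem_L₀ (Mof_spec b p h1 h0) v
  have h3 := epsU_pow_mem' L₀ s2_mem_L₀ (Mof b p * v)
  rw [pow_mul] at h3
  exact ⟨h3.1, h3.2, h2.1, h2.2⟩

lemma evR_eval₂ {V : Type} (E : MvPolynomial (Ib n s b) ℂ) (t : DomT E) (v : V → RatRing E)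
    (f : MvPolynomial V ℂ) :
    evR E t (MvPolynomial.eval₂ (constR E) v f) =
      MvPolynomial.aeval (fun p => evR E t (v p)) f := by
  induction f using MvPolynomial.induction_on with
  | C c =>
    rw [MvPolynomial.eval₂_C, evR_constR, MvPolynomial.aeval_C]
    rfl
  | add p q hp hq => rw [MvPolynomial.eval₂_add, map_add, hp, hq, map_add]
  | mul_X p i hp =>
    rw [MvPolynomial.eval₂_mul, MvPolynomial.eval₂_X, map_mul, hp, map_mul, MvPolynomial.aeval_X]

/-- The density statement. -/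
theorem chi0_density (hm : 4 ≤ mm s b) (hs : s ≤ 1)
    (f : MvPolynomial (Var (n + 2) (2 * b + s) 0) ℂ)
    (hf : ∀ ρ : RepData (n + 2) (2 * b + s) 0, SurfaceRelation ρ → IsOLPoint L₀ ρ →
      MvPolynomial.aeval (point ρ) f = 0) (t : DomT (E₁ n s b)) :
    MvPolynomial.aeval (point (chi0 hm t)) f = 0 := by
  let g : A₁ n s b := MvPolynomial.eval₂ (constR (E₁ n s b))
    (fun p => (gensA hm p.1).1 p.2.1 p.2.2) f
  have hg : ∀ t : DomT (E₁ n s b), g.1 t = MvPolynomial.aeval (point (chi0 hm t)) f := by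
    intro t
    exact evR_eval₂ (E₁ n s b) t _ f
  obtain ⟨P, e, hP⟩ := g.2
  have hP0 := nested_vanish P gridX gridX_infinite (gridS b) (gridS_infinite b) (by
    intro p hp u hu
    let t : DomT (E₁ n s b) := ⟨Sum.elim p u, mem_dom p hp u⟩
    have h1 := hP t
    have h2 : g.1 t = 0 := by
      rw [hg]
      apply hf _ (chi0_relation hm hs t)
      apply chi0_integral hm t
      · exact fun x => gridX_mem (hp x)
      · intro x
        have := gridS_near (b := b) p hp (hu x)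
        exact this
    rw [h2, zero_mul] at h1
    exact h1.symm)
  have h3 := hP t
  have h4 : t.1 = Sum.elim (fun x => t.1 (Sum.inl x)) (fun x => t.1 (Sum.inr x)) := by
    funext x
    cases x <;> rfl
  have h5 : evt t.1 P = 0 := by
    rw [h4]
    exact hP0 _ _
  rw [h5] at h3
  have h6 := (mul_eq_zero.mp h3).resolve_right (pow_ne_zero _ t.2)
  rw [← hg]
  exact h6

end Vale.Agent.Lib.P002.Surf
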