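import Mathlib
import Vale.Agent.Lib.P002.Closed.Dens

set_option linter.unusedSectionVars false
set_option linter.unusedVariables false
set_option linter.unusedSimpArgs false
set_option linter.unnecessarySeqFocus false

namespace Vale.Agent.Lib.P002.Surf

open Matrix

variable {R A : Type*} [CommRing R] [CommRing A] {n s b : ℕ}

lemma prodDown_conj {G : Type*} [Group G] (W W' : ℕ → G) (P : G) (k : ℕ)
    (h : ∀ j, j < k → W' j = P * W j * P⁻¹) : prodDown W' k = P * prodDown W k * P⁻¹ := by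
  induction k with
  | zero => simp [prodDown]
  | succ k ih =>
    simp only [prodDown]
    rw [ih (fun j hj => h j (by omega)), h k (by omega)]
    group

/-- From the conjugacy of generators to the conjugacy of the word at the base vertex. -/
lemma HH_conj (I : Inp R n s b) (hm : 4 ≤ mm s b) (f f' : R →+* ℂ) (P : GLr ℂ (n + 2))
    (hs : s ≤ 1)
    (hx : ∀ i, i < b → GLmap f' (xW I hm i) = P * GLmap f (xW I hm i) * P⁻¹)
    (hy : ∀ i, i < b → GLmap f' (yW I hm i) = P * GLmap f (yW I hm i) * P⁻¹)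
    (hC : s = 1 → GLmap f' (sWd I hm 0) = P * GLmap f (sWd I hm 0) * P⁻¹) :
    GLmap f' (HH I hm).1 = P * GLmap f (HH I hm).1 * P⁻¹ := by
  rw [← hH_map I hm f' hs, ← hH_map I hm f hs]
  have h1 := prodDown_conj
    (fun i => GLmap f (xW I hm i) * GLmap f (yW I hm i) * (GLmap f (xW I hm i))⁻¹ *
        (GLmap f (yW I hm i))⁻¹)
    (fun i => GLmap f' (xW I hm i) * GLmap f' (yW I hm i) * (GLmap f' (xW I hm i))⁻¹ *
        (GLmap f' (yW I hm i))⁻¹) P b (fun j hj => by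
      rw [hx j hj, hy j hj]
      group)
  rw [h1]
  by_cases h2 : s = 1
  · rw [if_pos h2, if_pos h2, hC h2]
    group
  · rw [if_neg h2, if_neg h2]
    group

lemma hgen_of_parts (I : Inp R n s b) (hm : 4 ≤ mm s b) (f f' : R →+* ℂ) (P : GLr ℂ (n + 2))
    (hs : s ≤ 1)
    (hx : ∀ i, i < b → GLmap f' (xW I hm i) = P * GLmap f (xW I hm i) * P⁻¹)
    (hy : ∀ i, i < b → GLmap f' (yW I hm i) = P * GLmap f (yW I hm i) * P⁻¹)
    (hC : s = 1 → GLmap f' (sWd I hm 0) = P * GLmap f (sWd I hm 0) * P⁻¹) (x : Gens b (s + 1)) :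
    GLmap f' (gensGL I hm x) = P * GLmap f (gensGL I hm x) * P⁻¹ := by
  rcases x with i | i | j
  · exact hx _ (by have := i.isLt; omega)
  · exact hy _ (by have := i.isLt; omega)
  · simp only [gensGL]
    split_ifs with h
    · have h1 : s = 1 := by omega
      have h2 : s - 1 - j.val = 0 := by omega
      rw [h2]
      exact hC h1
    · have h3 := HH_conj I hm f f' P hs hx hy hC
      have h4 : (((HH I hm)⁻¹ : Bp R (n + 2)).1 : GLr R (n + 2)) = ((HH I hm).1)⁻¹ := rfl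
      rw [h4, map_inv, map_inv, h3]
      group

/-- Uniqueness of the eigenvector matrix. -/
lemma diag_unique {r : ℕ} (B d d' : GLr ℂ r) (q : Fin r → ℂˣ)
    (hq : Function.Injective fun i => ((q i : ℂˣ) : ℂ)) (hd : d ∈ Up ℂ r) (hd' : d' ∈ Up ℂ r)
    (h : B * d = d * tor q) (h' : B * d' = d' * tor q) : d = d' := by
  let X : GLr ℂ r := d⁻¹ * d'
  have hX : X ∈ Up ℂ r := mul_mem (inv_mem hd) hd'
  have hc : X * tor q = tor q * X := by
    have h1 : d⁻¹ * B = tor q * d⁻¹ := by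
      have : B = d * tor q * d⁻¹ := by rw [← h]; group
      rw [this]
      group
    calc X * tor q = d⁻¹ * (d' * tor q) := by simp only [X]; group
      _ = (d⁻¹ * B) * d' := by rw [← h']; group
      _ = tor q * X := by rw [h1]; simp only [X]; group
  have hX1 : X = 1 := by
    apply Units.ext
    ext i j
    by_cases hij : i = j
    · subst hij
      show X.1 i i = (1 : Matrix (Fin r) (Fin r) ℂ) i i
      rw [hX.2 i]
      simp
    · show X.1 i j = (1 : Matrix (Fin r) (Fin r) ℂ) i j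
      rw [Matrix.one_apply_ne hij]
      have h2 := congrFun (congrFun (congrArg (fun g : GLr ℂ r => g.1) hc) i) j
      have h3 : (X.1 * Matrix.diagonal fun i => ((q i : ℂˣ) : ℂ)) i j =
          (Matrix.diagonal (fun i => ((q i : ℂˣ) : ℂ)) * X.1) i j := h2
      rw [Matrix.mul_diagonal, Matrix.diagonal_mul] at h3
      have h4 : ((q j : ℂˣ) : ℂ) - q i ≠ 0 :=
        sub_ne_zero.mpr fun h5 => hij (hq h5).symm
      have h5 : X.1 i j * (((q j : ℂˣ) : ℂ) - q i) = 0 := by linear_combination h3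
      exact (mul_eq_zero.mp h5).resolve_right h4
  have : d' = d * X := by simp [X]
  rw [this, hX1, mul_one]

/-- Comparison of the intertwiners at two points with the same matrices. -/
lemma Cj_rigid {r : ℕ} (e e' : A →+* ℂ) (B B' : Bp A r) (q : Fin r → Aˣ) (hq : dg B = q)
    (hq' : dg B' = q) (hdiff : ∀ i j, i ≠ j → IsUnit ((q j : A) - q i)) (ζ : Fin r → Aˣ)
    (hB : GLmap e B.1 = GLmap e' B.1) (hB' : GLmap e B'.1 = GLmap e' B'.1)
    (hqe : mapZ e q = mapZ e' q)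
    (hinj : Function.Injective fun i => ((mapZ e q i : ℂˣ) : ℂ)) (c : ℂˣ)
    (h : (GLmap e' (Cj B B' q hq hq' hdiff ζ))⁻¹ * GLmap e (Cj B B' q hq hq' hdiff ζ) =
      tor fun _ => c) (i : Fin r) :
    mapZ e ζ i = c * mapZ e' ζ i := by
  have key : ∀ (C : Bp A r) (hC : dg C = q), GLmap e C.1 = GLmap e' C.1 →
      GLmap e (diagz C q hC hdiff) = GLmap e' (diagz C q hC hdiff) := by
    intro C hC hCe
    apply diag_unique (GLmap e C.1) _ _ (mapZ e q) hinj (GLmap_Up e (diagz_mem C q hC hdiff))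
      (GLmap_Up e' (diagz_mem C q hC hdiff))
    · have := congrArg (GLmap e) (diagz_rel C q hC hdiff)
      rw [map_mul, map_mul, GLmap_tor] at this
      exact this
    · have := congrArg (GLmap e') (diagz_rel C q hC hdiff)
      rw [map_mul, map_mul, GLmap_tor] at this
      rw [hCe, hqe]
      exact this
  simp only [Cj, map_mul, map_inv] at h
  rw [key B hq hB, key B' hq' hB'] at h
  simp only [GLmap_tor] at h
  generalize GLmap e' (diagz B q hq hdiff) = D₁ at h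
  generalize GLmap e' (diagz B' q hq' hdiff) = D₂ at h
  -- remove the conjugation
  have h1 : (tor fun i => Units.map (e' : A →* ℂ) (ζ i))⁻¹ *
      (tor fun i => Units.map (e : A →* ℂ) (ζ i)) = tor fun _ => c := by
    have h2 : D₂ * ((tor fun i => Units.map (e' : A →* ℂ) (ζ i))⁻¹ *
        (tor fun i => Units.map (e : A →* ℂ) (ζ i))) * D₂⁻¹ = tor fun _ => c := by
      rw [← h]
      group
    have h3 := tor_const_comm c D₂
    have h4 : (tor fun _ => c) = D₂⁻¹ * (tor fun _ => c) * D₂ := by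
      rw [mul_assoc, h3]
      group
    rw [h4, ← h2]
    group
  have h5 : (tor fun i => Units.map (e : A →* ℂ) (ζ i)) =
      (tor fun i => Units.map (e' : A →* ℂ) (ζ i)) * tor fun _ => c := by
    rw [← h1]
    group
  rw [← tor_mul] at h5
  have h6 := congrFun (tor_injective h5) i
  show Units.map (e : A →* ℂ) (ζ i) = c * Units.map (e' : A →* ℂ) (ζ i)
  rw [h6, mul_comm]
  rfl

lemma GLmap_comp' {r : ℕ} {S : Type*} [CommRing S] (e : A →+* S) (ι : R →+* A) (g : GLr R r) :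
    GLmap e (GLmap ι g) = GLmap (e.comp ι) g := by
  apply Units.ext
  ext i j
  rfl

section glue

variable (I : Inp R n s b) (hm : 4 ≤ mm s b) (ι₁ ι₂ : R →+* A)
  (ha : ∀ k, k ≤ s → ∀ i, ι₁ (I.a k i) = ι₂ (I.a k i))
  (hdA : ∀ k, k ≤ s → ∀ i i', i ≠ i' → IsUnit (ι₁ (I.a k i) - ι₁ (I.a k i')))
  (τ κ : Fin (n + 2) → Aˣ)

lemma gensC_x1 (i : ℕ) (hi : i < b) :
    gensC I hm ι₁ ι₂ τ κ ha hdA (Sum.inl ⟨b - 1 - i, by omega⟩) = GLmap ι₁ (xW I hm i) := by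
  have h1 : b - 1 - i < b := by omega
  have h2 : b - 1 - (b - 1 - i) = i := by omega
  simp only [gensC, AAc, if_pos h1, h2]

lemma gensC_y1 (i : ℕ) (hi : i < b) :
    gensC I hm ι₁ ι₂ τ κ ha hdA (Sum.inr (Sum.inl ⟨b - 1 - i, by omega⟩)) =
      GLmap ι₁ (yW I hm i) := by
  have h1 : b - 1 - i < b := by omega
  have h2 : b - 1 - (b - 1 - i) = i := by omega
  simp only [gensC, BBc, if_pos h1, h2]

lemma gensC_C (hs : s = 1) :
    gensC I hm ι₁ ι₂ τ κ ha hdA (Sum.inl ⟨b, by omega⟩) = GLmap ι₁ (sWd I hm 0) := by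
  have h1 : ¬ b < b := by omega
  have h2 : b < b + s := by omega
  simp only [gensC, AAc, if_neg h1, if_pos h2]

lemma gensC_v (hs : s = 1) :
    gensC I hm ι₁ ι₂ τ κ ha hdA (Sum.inr (Sum.inl ⟨b, by omega⟩)) =
      gQ I hm ι₁ ι₂ τ ha hdA * gT I hm ι₁ ι₂ κ ha hdA := by
  have h1 : ¬ b < b := by omega
  have h2 : b < b + s := by omega
  simp only [gensC, BBc, if_neg h1, if_pos h2]

lemma gensC_y2 (i : ℕ) (hi : i < b) :
    gensC I hm ι₁ ι₂ τ κ ha hdA (Sum.inl ⟨b + s + i, by omega⟩) =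
      gQ I hm ι₁ ι₂ τ ha hdA * GLmap ι₂ (yW I hm i) * (gQ I hm ι₁ ι₂ τ ha hdA)⁻¹ := by
  have h1 : ¬ b + s + i < b := by omega
  have h2 : ¬ b + s + i < b + s := by omega
  have h3 : b + s + i - b - s = i := by omega
  simp only [gensC, AAc, if_neg h1, if_neg h2, h3]

lemma gensC_x2 (i : ℕ) (hi : i < b) :
    gensC I hm ι₁ ι₂ τ κ ha hdA (Sum.inr (Sum.inl ⟨b + s + i, by omega⟩)) =
      gQ I hm ι₁ ι₂ τ ha hdA * GLmap ι₂ (xW I hm i) * (gQ I hm ι₁ ι₂ τ ha hdA)⁻¹ := by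
  have h1 : ¬ b + s + i < b := by omega
  have h2 : ¬ b + s + i < b + s := by omega
  have h3 : b + s + i - b - s = i := by omega
  simp only [gensC, BBc, if_neg h1, if_neg h2, h3]

variable (e e' : A →+* ℂ) (P : GLr ℂ (n + 2))
  (hP : ∀ x, GLmap e' (gensC I hm ι₁ ι₂ τ κ ha hdA x) =
    P * GLmap e (gensC I hm ι₁ ι₂ τ κ ha hdA x) * P⁻¹)
  (hs : s ≤ 1)
  (hinj : ∀ k, k ≤ s → Function.Injective fun i => e (ι₁ (I.a k i)))
  (hee : ∀ k, k ≤ s → ∀ i, e (ι₁ (I.a k i)) = e' (ι₁ (I.a k i)))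

include hP hs hinj hee

/-- Rigidity of the first copy. -/
lemma gensC_rigid₁ :
    (∀ i l j, 1 ≤ i → i + 2 ≤ mm s b → 1 ≤ l → l ≤ n + 1 → j < l →
      (e'.comp ι₁) ((cc I i l j : Rˣ) : R) = (e.comp ι₁) ((cc I i l j : Rˣ) : R)) ∧
    (∀ k q, k < 2 * b → (e'.comp ι₁) ((I.zf k q : Rˣ) : R) = (e.comp ι₁) ((I.zf k q : Rˣ) : R)) ∧
    ∃ c : ℂˣ, P = tor (fun _ => c) := by
  apply chart_rigid I hm (e.comp ι₁) (e'.comp ι₁) (fun k hk i => hee k hk i) hinj P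
  apply hgen_of_parts I hm _ _ P hs
  · intro i hi
    have h := hP (Sum.inl ⟨b - 1 - i, by omega⟩)
    rw [gensC_x1 I hm ι₁ ι₂ ha hdA τ κ i hi, GLmap_comp', GLmap_comp'] at h
    exact h
  · intro i hi
    have h := hP (Sum.inr (Sum.inl ⟨b - 1 - i, by omega⟩))
    rw [gensC_y1 I hm ι₁ ι₂ ha hdA τ κ i hi, GLmap_comp', GLmap_comp'] at h
    exact h
  · intro h1
    have h := hP (Sum.inl ⟨b, by omega⟩)
    rw [gensC_C I hm ι₁ ι₂ ha hdA τ κ h1, GLmap_comp', GLmap_comp'] at h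
    exact h

/-- The comparison matrix for the second copy. -/
lemma gensC_hgen₂ (h0 : 0 < 1) (i : ℕ) (hi : i < b) :
    GLmap (e'.comp ι₂) (xW I hm i) =
        ((GLmap e' (gQ I hm ι₁ ι₂ τ ha hdA))⁻¹ * P * GLmap e (gQ I hm ι₁ ι₂ τ ha hdA)) *
          GLmap (e.comp ι₂) (xW I hm i) *
        ((GLmap e' (gQ I hm ι₁ ι₂ τ ha hdA))⁻¹ * P * GLmap e (gQ I hm ι₁ ι₂ τ ha hdA))⁻¹ ∧
    GLmap (e'.comp ι₂) (yW I hm i) =
        ((GLmap e' (gQ I hm ι₁ ι₂ τ ha hdA))⁻¹ * P * GLmap e (gQ I hm ι₁ ι₂ τ ha hdA)) *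
          GLmap (e.comp ι₂) (yW I hm i) *
        ((GLmap e' (gQ I hm ι₁ ι₂ τ ha hdA))⁻¹ * P * GLmap e (gQ I hm ι₁ ι₂ τ ha hdA))⁻¹ := by
  have h1 := hP (Sum.inr (Sum.inl ⟨b + s + i, by omega⟩))
  have h2 := hP (Sum.inl ⟨b + s + i, by omega⟩)
  rw [gensC_x2 I hm ι₁ ι₂ ha hdA τ κ i hi] at h1
  rw [gensC_y2 I hm ι₁ ι₂ ha hdA τ κ i hi] at h2
  simp only [map_mul, map_inv, GLmap_comp'] at h1 h2
  generalize GLmap e' (gQ I hm ι₁ ι₂ τ ha hdA) = Q' at *
  generalize GLmap e (gQ I hm ι₁ ι₂ τ ha hdA) = Q at *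
  constructor
  · generalize GLmap (e'.comp ι₂) (xW I hm i) = X' at *
    generalize GLmap (e.comp ι₂) (xW I hm i) = X at *
    have h3 : X' = Q'⁻¹ * (Q' * X' * Q'⁻¹) * Q' := by group
    rw [h3, h1]
    group
  · generalize GLmap (e'.comp ι₂) (yW I hm i) = X' at *
    generalize GLmap (e.comp ι₂) (yW I hm i) = X at *
    have h3 : X' = Q'⁻¹ * (Q' * X' * Q'⁻¹) * Q' := by group
    rw [h3, h2]
    group

/-- The spike of the second copy. -/
lemma gensC_hgenC₂ (h1 : s = 1) :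
    GLmap (e'.comp ι₂) (sWd I hm 0) =
        ((GLmap e' (gQ I hm ι₁ ι₂ τ ha hdA))⁻¹ * P * GLmap e (gQ I hm ι₁ ι₂ τ ha hdA)) *
          GLmap (e.comp ι₂) (sWd I hm 0) *
        ((GLmap e' (gQ I hm ι₁ ι₂ τ ha hdA))⁻¹ * P * GLmap e (gQ I hm ι₁ ι₂ τ ha hdA))⁻¹ := by
  have hC := hP (Sum.inl ⟨b, by omega⟩)
  have hv := hP (Sum.inr (Sum.inl ⟨b, by omega⟩))
  rw [gensC_C I hm ι₁ ι₂ ha hdA τ κ h1, GLmap_comp', GLmap_comp'] at hC
  rw [gensC_v I hm ι₁ ι₂ ha hdA τ κ h1, map_mul, map_mul] at hv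
  have hT := congrArg (GLmap e) (gT_conj I hm ι₁ ι₂ ha hdA κ (by omega))
  have hT' := congrArg (GLmap e') (gT_conj I hm ι₁ ι₂ ha hdA κ (by omega))
  simp only [map_mul, map_inv, GLmap_comp'] at hT hT'
  rw [← hT, ← hT', hC]
  generalize GLmap e' (gQ I hm ι₁ ι₂ τ ha hdA) = Q' at *
  generalize GLmap e (gQ I hm ι₁ ι₂ τ ha hdA) = Q at *
  generalize GLmap e' (gT I hm ι₁ ι₂ κ ha hdA) = T' at *
  generalize GLmap e (gT I hm ι₁ ι₂ κ ha hdA) = T at *
  have h3 : T' = Q'⁻¹ * (P * (Q * T) * P⁻¹) := by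
    rw [← hv]
    group
  rw [h3]
  group

include ha in
/-- Rigidity of the second copy. -/
lemma gensC_rigid₂ :
    (∀ i l j, 1 ≤ i → i + 2 ≤ mm s b → 1 ≤ l → l ≤ n + 1 → j < l →
      (e'.comp ι₂) ((cc I i l j : Rˣ) : R) = (e.comp ι₂) ((cc I i l j : Rˣ) : R)) ∧
    (∀ k q, k < 2 * b → (e'.comp ι₂) ((I.zf k q : Rˣ) : R) = (e.comp ι₂) ((I.zf k q : Rˣ) : R)) ∧
    ∃ c : ℂˣ, (GLmap e' (gQ I hm ι₁ ι₂ τ ha hdA))⁻¹ * P * GLmap e (gQ I hm ι₁ ι₂ τ ha hdA) =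
      tor (fun _ => c) := by
  apply chart_rigid I hm (e.comp ι₂) (e'.comp ι₂)
    (fun k hk i => by
      simp only [RingHom.comp_apply, ← ha k hk i]
      exact hee k hk i)
    (fun k hk => by
      simp only [RingHom.comp_apply, ← ha k hk _]
      exact hinj k hk)
  apply hgen_of_parts I hm _ _ _ hs
  · exact fun i hi => (gensC_hgen₂ I hm ι₁ ι₂ ha hdA τ κ e e' P hP hs hinj hee (by norm_num) i hi).1
  · exact fun i hi => (gensC_hgen₂ I hm ι₁ ι₂ ha hdA τ κ e e' P hP hs hinj hee (by norm_num) i hi).2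
  · exact gensC_hgenC₂ I hm ι₁ ι₂ ha hdA τ κ e e' P hP hs hinj hee

omit hP hs hinj hee in
lemma tor_const_one {r : ℕ} : (tor (fun _ : Fin r => (1 : ℂˣ))) = 1 := tor_one

omit hP hs hinj hee in
lemma central_aux {G : Type*} [Group G] (P Q Q' C : G) (hc : ∀ X, P * X = X * P)
    (h : Q'⁻¹ * P * Q = C) : Q'⁻¹ * Q = P⁻¹ * C := by
  have h3 : Q'⁻¹ * P = P * Q'⁻¹ := (hc _).symm
  rw [← h, h3]
  group

omit hP hs hinj hee in
lemma tor_const_inv_mul {r : ℕ} (c₁ c₂ : ℂˣ) :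
    (tor fun _ : Fin r => c₁)⁻¹ * (tor fun _ : Fin r => c₂) = tor fun _ : Fin r => c₁⁻¹ * c₂ := by
  rw [← tor_inv, ← tor_mul]
  rfl

omit hP hs hee in
lemma inj_qH : Function.Injective fun i => ((mapZ e (qH I hm ι₁) i : ℂˣ) : ℂ) := by
  have key : ∀ i, mapZ e (qH I hm ι₁) i = (Units.map (e.comp ι₁ : R →* ℂ) (I.a s i))⁻¹ := by
    intro i
    simp only [qH, dg_HH_eq, mapZ]
    apply Units.ext
    simp
  intro i j hij
  simp only [key] at hij
  have h1 := Units.ext hij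
  have h2 := inv_injective h1
  exact hinj s le_rfl (congrArg (fun u : ℂˣ => (u : ℂ)) h2)

include ha hdA in
/-- Rigidity of the twists. -/
lemma gensC_twist (hf₁ : e.comp ι₁ = e'.comp ι₁) (hf₂ : e.comp ι₂ = e'.comp ι₂)
    (hτ : τ (Fin.last _) = 1) :
    (∀ i, mapZ e τ i = mapZ e' τ i) ∧ (s = 1 → ∀ i, mapZ e κ i = mapZ e' κ i) := by
  obtain ⟨-, -, c₁, hc₁⟩ := gensC_rigid₁ I hm ι₁ ι₂ ha hdA τ κ e e' P hP hs hinj hee
  obtain ⟨-, -, c₂, hc₂⟩ := gensC_rigid₂ I hm ι₁ ι₂ ha hdA τ κ e e' P hP hs hinj hee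
  have hcomm : ∀ X : GLr ℂ (n + 2), P * X = X * P := by
    intro X
    rw [hc₁]
    exact tor_const_comm _ X
  have hQ0 := central_aux _ _ _ _ hcomm hc₂
  have hQ : (GLmap e' (gQ I hm ι₁ ι₂ τ ha hdA))⁻¹ * GLmap e (gQ I hm ι₁ ι₂ τ ha hdA) =
      tor fun _ => c₁⁻¹ * c₂ := by
    rw [hQ0]
    conv_lhs => rw [hc₁]
    exact tor_const_inv_mul c₁ c₂
  have hR := Cj_rigid e e' (mapB ι₁ (HH I hm)) (mapB ι₂ (HH I hm)) (qH I hm ι₁)
    (dg_mapB_HH₁ I hm ι₁) (dg_mapB_HH₂ I hm ι₁ ι₂ ha) (fun i j hij => diff_qH I hm ι₁ hdA i j hij) τ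
    (by
      show GLmap e (GLmap ι₁ _) = GLmap e' (GLmap ι₁ _)
      rw [GLmap_comp', GLmap_comp', hf₁])
    (by
      show GLmap e (GLmap ι₂ _) = GLmap e' (GLmap ι₂ _)
      rw [GLmap_comp', GLmap_comp', hf₂])
    (by
      funext i
      apply Units.ext
      exact RingHom.congr_fun hf₁ _)
    (inj_qH I hm ι₁ e hinj) (c₁⁻¹ * c₂) hQ
  have hc1 : c₁⁻¹ * c₂ = 1 := by
    have h1 := hR (Fin.last _)
    simp only [mapZ, hτ, map_one, mul_one] at h1
    exact h1.symm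
  rw [hc1] at hR hQ
  have hτ' : ∀ i, mapZ e τ i = mapZ e' τ i := fun i => by rw [hR i, one_mul]
  refine ⟨hτ', fun h1 => ?_⟩
  -- the second twist
  have hQQ : GLmap e (gQ I hm ι₁ ι₂ τ ha hdA) = GLmap e' (gQ I hm ι₁ ι₂ τ ha hdA) := by
    rw [tor_const_one] at hQ
    exact (inv_mul_eq_one.mp hQ).symm
  have hv := hP (Sum.inr (Sum.inl ⟨b, by omega⟩))
  rw [gensC_v I hm ι₁ ι₂ ha hdA τ κ h1, map_mul, map_mul, hcomm, mul_inv_cancel_right,
    ← hQQ] at hv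
  have hT := mul_left_cancel hv
  simp only [gT, map_mul, map_inv, GLmap_comp', ← hf₁, ← hf₂] at hT
  have hD := mul_left_cancel (mul_right_cancel hT)
  have hsz : s - 1 - 0 ≤ s := by omega
  have hR2 := Cj_rigid e e' (mapB ι₂ (sBd I hm 0)) (mapB ι₁ (sBd I hm 0)) (qS I hm ι₁)
    (dg_mapB_S₂ I hm ι₁ ι₂ ha) (dg_mapB_S₁ I hm ι₁) (fun i j hij => diff_qS I hm ι₁ hdA i j hij) κ
    (by
      show GLmap e (GLmap ι₂ _) = GLmap e' (GLmap ι₂ _)
      rw [GLmap_comp', GLmap_comp', hf₂])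
    (by
      show GLmap e (GLmap ι₁ _) = GLmap e' (GLmap ι₁ _)
      rw [GLmap_comp', GLmap_comp', hf₁])
    (by
      funext i
      apply Units.ext
      exact RingHom.congr_fun hf₁ _)
    (by
      simp only [qS, dg_sBd]
      exact hinj _ hsz) 1
    (by
      rw [tor_const_one]
      exact inv_mul_eq_one.mpr hD)
  intro i
  rw [hR2 i, one_mul]

end glue

end Vale.Agent.Lib.P002.Surf
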