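import Mathlib
import Vale.Agent.Lib.P002.Closed.Fib

set_option linter.unusedSectionVars false
set_option linter.unusedVariables false
set_option linter.unusedSimpArgs false
set_option linter.unnecessarySeqFocus false

namespace Vale.Agent.Lib.P002.Surf

open Matrix

variable {n s b : ℕ}

/-- The rigidity conclusions determine the parameters. -/
lemma params_eq (j : Ic n s b → Ib n s b) (t t' : DomT (E₁ n s b)) (hm : 4 ≤ mm s b)
    (H1 : ∀ i l q, 1 ≤ i → i + 2 ≤ mm s b → 1 ≤ l → l ≤ n + 1 → q < l →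
      ((evR (E₁ n s b) t').comp (iota j)) ((cc (cInp n s b) i l q : (LRing O₀ (Ic n s b))ˣ) : LRing O₀ (Ic n s b)) =
        ((evR (E₁ n s b) t).comp (iota j)) ((cc (cInp n s b) i l q : (LRing O₀ (Ic n s b))ˣ) : LRing O₀ (Ic n s b)))
    (H2 : ∀ k q, k < 2 * b →
      ((evR (E₁ n s b) t').comp (iota j)) (((cInp n s b).zf k q : (LRing O₀ (Ic n s b))ˣ) : LRing O₀ (Ic n s b)) =
        ((evR (E₁ n s b) t).comp (iota j)) (((cInp n s b).zf k q : (LRing O₀ (Ic n s b))ˣ) : LRing O₀ (Ic n s b)))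
    (x : ParIdx n s b) : t.1 (j (Sum.inr x)) = t'.1 (j (Sum.inr x)) := by
  apply Units.ext
  rcases x with ⟨i, l, q⟩ | ⟨i, q⟩ | ⟨k, q⟩
  · have hi := i.isLt
    have hq := q.isLt
    have hl := l.isLt
    have h1 := H1 (i.val + 1) l.val q.val (by omega) (by omega) (by omega) (by omega) hq
    rw [cc_low _ _ _ _ (by omega)] at h1
    have h2 : (cInp n s b).cl (i.val + 1) l.val q.val = tU (Sum.inr (Sum.inl (i, ⟨l, q⟩))) := by
      simp only [cInp]
      rw [dif_pos ⟨by omega, by omega, by omega, hq⟩]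
      rfl
    rw [h2] at h1
    exact h1.symm
  · have hi := i.isLt
    have hq := q.isLt
    have h1 := H1 (i.val + 3) (n + 1) (n - q.val) (by omega) (by omega) (by omega) le_rfl (by omega)
    rw [cc_top _ _ _ (by omega) (by omega)] at h1
    have h2 : (cInp n s b).tp (i.val + 3) q.val = tU (Sum.inr (Sum.inr (Sum.inl (i, q)))) := by
      simp only [cInp]
      rw [dif_pos ⟨by omega, by omega, by omega⟩]
      rfl
    rw [h2] at h1
    exact h1.symm
  · have hk := k.isLt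
    have h1 := H2 k.val q hk
    have h2 : (cInp n s b).zf k.val q = tU (Sum.inr (Sum.inr (Sum.inr (k, q)))) := by
      simp only [cInp]
      rw [dif_pos hk]
    rw [h2] at h1
    exact h1.symm

lemma comp_iota_eq (j : Ic n s b → Ib n s b) (t t' : DomT (E₁ n s b))
    (h : ∀ x, t.1 (j x) = t'.1 (j x)) :
    (evR (E₁ n s b) t).comp (iota j) = (evR (E₁ n s b) t').comp (iota j) := by
  apply RingHom.ext
  intro x
  show x.1 (fun i => t.1 (j i)) = x.1 (fun i => t'.1 (j i))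
  have : (fun i => t.1 (j i)) = (fun i => t'.1 (j i)) := funext h
  rw [this]

/-- Two conjugate points with the same eigenvalue parameters coincide. -/
theorem chi0_inj (hm : 4 ≤ mm s b) (hs : s ≤ 1) (t t' : DomT (E₁ n s b))
    (hp : ∀ x, t.1 (Sum.inl x) = t'.1 (Sum.inl x))
    (hc : ConjEquivalent (chi0 hm t) (chi0 hm t')) : t = t' := by
  obtain ⟨h, hh⟩ := hc
  have hP : ∀ x, GLmap (evR (E₁ n s b) t') (gensA hm x) =
      slGL h * GLmap (evR (E₁ n s b) t) (gensA hm x) * (slGL h)⁻¹ := by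
    intro x
    rw [← slGL_chi0, ← slGL_chi0, hh x, map_mul, map_mul, map_inv]
  have hinj : ∀ k, k ≤ s → Function.Injective fun i =>
      evR (E₁ n s b) t (iota j₁ (((cInp n s b).a k i : (LRing O₀ (Ic n s b))ˣ) : LRing O₀ (Ic n s b))) := by
    intro k hk i i' hii
    by_contra hi
    have h1 := (iota_diff_unit (n := n) (s := s) (b := b) k hk i i' hi).map (evR (E₁ n s b) t)
    rw [map_sub] at h1
    simp only at hii
    rw [hii, sub_self] at h1
    exact not_isUnit_zero h1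
  have hee : ∀ k, k ≤ s → ∀ i,
      evR (E₁ n s b) t (iota j₁ (((cInp n s b).a k i : (LRing O₀ (Ic n s b))ˣ) : LRing O₀ (Ic n s b))) =
      evR (E₁ n s b) t' (iota j₁ (((cInp n s b).a k i : (LRing O₀ (Ic n s b))ˣ) : LRing O₀ (Ic n s b))) := by
    intro k hk i
    rw [evR_iota_a j₁ (fun _ => rfl) t k hk, evR_iota_a j₁ (fun _ => rfl) t' k hk]
    have : (fun x => t.1 (Sum.inl x)) = fun x => t'.1 (Sum.inl x) := funext hp
    rw [this]
  have R1 := gensC_rigid₁ (cInp n s b) hm (iota j₁) (iota j₂) iota_a iota_diff_unit τU κU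
    (evR (E₁ n s b) t) (evR (E₁ n s b) t') (slGL h) hP hs hinj hee
  have R2 := gensC_rigid₂ (cInp n s b) hm (iota j₁) (iota j₂) iota_a iota_diff_unit τU κU
    (evR (E₁ n s b) t) (evR (E₁ n s b) t') (slGL h) hP hs hinj hee
  have P1 := params_eq j₁ t t' hm R1.1 R1.2.1
  have P2 := params_eq j₂ t t' hm R2.1 R2.2.1
  have F1 := comp_iota_eq j₁ t t' (fun x => by
    rcases x with x | x
    · exact hp x
    · exact P1 x)
  have F2 := comp_iota_eq j₂ t t' (fun x => by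
    rcases x with x | x
    · exact hp x
    · exact P2 x)
  have hτl : (τU (n := n) (s := s) (b := b)) (Fin.last _) = 1 := by
    simp [τU]
  have T := gensC_twist (cInp n s b) hm (iota j₁) (iota j₂) iota_a iota_diff_unit τU κU
    (evR (E₁ n s b) t) (evR (E₁ n s b) t') (slGL h) hP hs hinj hee F1 F2 hτl
  have T1 : ∀ q, t.1 (tw 0 q) = t'.1 (tw 0 q) := by
    intro q
    have h1 := T.1 q.castSucc
    simpa [mapZ, τU, evR_coordU] using h1
  have T2 : s = 1 → ∀ q, t.1 (tw (Fin.last s) q) = t'.1 (tw (Fin.last s) q) := by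
    intro h2 q
    have h1 := T.2 h2 q.castSucc
    simpa [mapZ, κU, snocZ, evR_coordU] using h1
  apply Subtype.ext
  funext x
  rcases x with x | x | x | ⟨k, q⟩
  · exact hp x
  · exact P1 x
  · exact P2 x
  · have hk : k = 0 ∨ (s = 1 ∧ k = Fin.last s) := by
      have := k.isLt
      by_cases h3 : k.val = 0
      · left
        exact Fin.ext h3
      · right
        refine ⟨by omega, Fin.ext ?_⟩
        simp only [Fin.val_last]
        omega
    rcases hk with rfl | ⟨h3, rfl⟩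
    · exact T1 q
    · exact T2 h3 q

/-- Conjugate triangular matrices have the same diagonal entries. -/
lemma diag_mem_of_conj {r : ℕ} (X Y P : GLr ℂ r) (hX : X ∈ Bp ℂ r) (hY : Y ∈ Bp ℂ r)
    (h : Y = P * X * P⁻¹) (i : Fin r) : ∃ i', Y.1 i i = X.1 i' i' := by
  have h1 : (Y.1).charpoly = (X.1).charpoly := by
    rw [h, Units.val_mul, Units.val_mul, Matrix.coe_units_inv]
    exact Matrix.charpoly_units_conj P X.1
  have hX2 : (X.1).BlockTriangular id := fun a b hab => hX a b hab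
  have hY2 : (Y.1).BlockTriangular id := fun a b hab => hY a b hab
  rw [Matrix.charpoly_of_isUpperTriangular _ hX2, Matrix.charpoly_of_isUpperTriangular _ hY2] at h1
  have h2 := congrArg (Polynomial.eval (Y.1 i i)) h1
  rw [Polynomial.eval_prod, Polynomial.eval_prod] at h2
  have h3 : ∏ j, Polynomial.eval (Y.1 i i) (Polynomial.X - Polynomial.C (Y.1 j j)) = 0 := by
    apply Finset.prod_eq_zero (Finset.mem_univ i)
    simp
  rw [h3] at h2
  obtain ⟨j, -, hj⟩ := Finset.prod_eq_zero_iff.mp h2.symm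
  refine ⟨j, ?_⟩
  simpa [sub_eq_zero] using hj

section glue

variable {R A : Type*} [CommRing R] [CommRing A]
  (I : Inp R n s b) (hm : 4 ≤ mm s b) (ι₁ ι₂ : R →+* A)
  (ha : ∀ k, k ≤ s → ∀ i, ι₁ (I.a k i) = ι₂ (I.a k i))
  (hdA : ∀ k, k ≤ s → ∀ i i', i ≠ i' → IsUnit (ι₁ (I.a k i) - ι₁ (I.a k i')))
  (τ κ : Fin (n + 2) → Aˣ)
  (e e' : A →+* ℂ) (P : GLr ℂ (n + 2))
  (hP : ∀ x, GLmap e' (gensC I hm ι₁ ι₂ τ κ ha hdA x) =
    P * GLmap e (gensC I hm ι₁ ι₂ τ κ ha hdA x) * P⁻¹)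
  (hs : s ≤ 1)

include hP hs

lemma gensC_eigen_H (i : Fin (n + 2)) :
    ∃ i', e' (ι₁ (I.a s i)) = e (ι₁ (I.a s i')) := by
  have h := HH_conj I hm (e.comp ι₁) (e'.comp ι₁) P hs
    (fun i hi => by
      have h := hP (Sum.inl ⟨b - 1 - i, by omega⟩)
      rw [gensC_x1 I hm ι₁ ι₂ ha hdA τ κ i hi, GLmap_comp', GLmap_comp'] at h
      exact h)
    (fun i hi => by
      have h := hP (Sum.inr (Sum.inl ⟨b - 1 - i, by omega⟩))
      rw [gensC_y1 I hm ι₁ ι₂ ha hdA τ κ i hi, GLmap_comp', GLmap_comp'] at h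
      exact h)
    (fun h1 => by
      have h := hP (Sum.inl ⟨b, by omega⟩)
      rw [gensC_C I hm ι₁ ι₂ ha hdA τ κ h1, GLmap_comp', GLmap_comp'] at h
      exact h)
  have hdg : ∀ (φ : R →+* ℂ) (i : Fin (n + 2)),
      (GLmap φ ((HH I hm)⁻¹).1).1 i i = φ (I.a s i) := by
    intro φ i
    show φ (((HH I hm)⁻¹).1.1 i i) = _
    have h2 : dg ((HH I hm)⁻¹) = I.a s := by
      rw [dg_inv, dg_HH, DD_eq]
      simp
    have h3 := congrFun h2 i
    rw [← h3]
    rfl
  have h2 : GLmap (e'.comp ι₁) ((HH I hm)⁻¹).1 =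
      P * GLmap (e.comp ι₁) ((HH I hm)⁻¹).1 * P⁻¹ := by
    have h4 : (((HH I hm)⁻¹ : Bp R (n + 2)).1 : GLr R (n + 2)) = ((HH I hm).1)⁻¹ := rfl
    rw [h4, map_inv, map_inv, h]
    group
  obtain ⟨i', hi'⟩ := diag_mem_of_conj _ _ P (GLmap_Bp _ ((HH I hm)⁻¹).2)
    (GLmap_Bp _ ((HH I hm)⁻¹).2) h2 i
  refine ⟨i', ?_⟩
  rw [hdg, hdg] at hi'
  exact hi'

lemma gensC_eigen_S (h1 : s = 1) (i : Fin (n + 2)) :
    ∃ i', e' (ι₁ (I.a 0 i)) = e (ι₁ (I.a 0 i')) := by
  have h := hP (Sum.inl ⟨b, by omega⟩)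
  rw [gensC_C I hm ι₁ ι₂ ha hdA τ κ h1, sWd_map I hm ι₁ (by omega)] at h
  simp only [map_mul, map_inv, GLmap_comp'] at h
  generalize hF' : GLmap (e'.comp ι₁) ((theChain I hm).φ 1) = F' at h
  generalize hF : GLmap (e.comp ι₁) ((theChain I hm).φ 1) = F at h
  have h2 : GLmap (e'.comp ι₁) (sBd I hm 0).1 =
      (F'⁻¹ * P * F) * GLmap (e.comp ι₁) (sBd I hm 0).1 * (F'⁻¹ * P * F)⁻¹ := by
    generalize GLmap (e'.comp ι₁) (sBd I hm 0).1 = X' at *
    generalize GLmap (e.comp ι₁) (sBd I hm 0).1 = X at *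
    have h3 : X' = F'⁻¹ * (F' * X' * F'⁻¹) * F' := by group
    rw [h3, h]
    group
  obtain ⟨i', hi'⟩ := diag_mem_of_conj _ _ _ (GLmap_Bp _ (sBd I hm 0).2)
    (GLmap_Bp _ (sBd I hm 0).2) h2 i
  refine ⟨i', ?_⟩
  have hdg : ∀ (φ : R →+* ℂ) (i : Fin (n + 2)),
      (GLmap φ (sBd I hm 0).1).1 i i = φ (I.a 0 i) := by
    intro φ i
    show φ ((sBd I hm 0).1.1 i i) = _
    have h3 := congrFun (dg_sBd I hm 0) i
    have h4 : s - 1 - 0 = 0 := by omega
    rw [h4] at h3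
    rw [← h3]
    rfl
  rw [hdg, hdg] at hi'
  exact hi'

end glue

lemma ConjEquivalent.symm' {r g s' : ℕ} {ρ ρ' : RepData r g s'} (h : ConjEquivalent ρ ρ') :
    ConjEquivalent ρ' ρ := by
  obtain ⟨P, hP⟩ := h
  refine ⟨P⁻¹, fun k => ?_⟩
  rw [hP k]
  group

lemma ConjEquivalent.trans' {r g s' : ℕ} {ρ ρ' ρ'' : RepData r g s'} (h : ConjEquivalent ρ ρ')
    (h' : ConjEquivalent ρ' ρ'') : ConjEquivalent ρ ρ'' := by
  obtain ⟨P, hP⟩ := h
  obtain ⟨Q, hQ⟩ := h'
  refine ⟨Q * P, fun k => ?_⟩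
  rw [hQ k, hP k]
  group

lemma aV_castSucc (p : Ip n s → ℂˣ) (k : Fin (s + 1)) (q : Fin (n + 1)) :
    aV p k q.castSucc = p (k, q) := by
  simp [aV, snocZ]

/-- The eigenvalues of a conjugate point are a permutation. -/
lemma chi0_eigen (hm : 4 ≤ mm s b) (hs : s ≤ 1) (t t' : DomT (E₁ n s b))
    (hc : ConjEquivalent (chi0 hm t) (chi0 hm t')) (k : Fin (s + 1)) (i : Fin (n + 2)) :
    ∃ i', aV (fun x => t'.1 (Sum.inl x)) k i = aV (fun x => t.1 (Sum.inl x)) k i' := by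
  obtain ⟨h, hh⟩ := hc
  have hP : ∀ x, GLmap (evR (E₁ n s b) t') (gensA hm x) =
      slGL h * GLmap (evR (E₁ n s b) t) (gensA hm x) * (slGL h)⁻¹ := by
    intro x
    rw [← slGL_chi0, ← slGL_chi0, hh x, map_mul, map_mul, map_inv]
  have hk : k = Fin.last s ∨ (s = 1 ∧ k = 0) := by
    have := k.isLt
    by_cases h3 : k.val = s
    · left
      exact Fin.ext h3
    · right
      refine ⟨by omega, Fin.ext ?_⟩
      simp only [Fin.val_zero]
      omega
  rcases hk with rfl | ⟨h3, rfl⟩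
  · obtain ⟨i', hi'⟩ := gensC_eigen_H (cInp n s b) hm (iota j₁) (iota j₂) iota_a iota_diff_unit τU κU
      (evR (E₁ n s b) t) (evR (E₁ n s b) t') (slGL h) hP hs i
    refine ⟨i', Units.ext ?_⟩
    rw [evR_iota_a j₁ (fun _ => rfl) t' s le_rfl, evR_iota_a j₁ (fun _ => rfl) t s le_rfl] at hi'
    exact hi'
  · obtain ⟨i', hi'⟩ := gensC_eigen_S (cInp n s b) hm (iota j₁) (iota j₂) iota_a iota_diff_unit τU κU
      (evR (E₁ n s b) t) (evR (E₁ n s b) t') (slGL h) hP hs h3 i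
    refine ⟨i', Units.ext ?_⟩
    rw [evR_iota_a j₁ (fun _ => rfl) t' 0 (by omega), evR_iota_a j₁ (fun _ => rfl) t 0 (by omega)] at hi'
    exact hi'

/-- The fibres of the chart are finite. -/
theorem chi0_fibre_finite (hm : 4 ≤ mm s b) (hs : s ≤ 1) (ρ : RepData (n + 2) (2 * b + s) 0) :
    {t : DomT (E₁ n s b) | ConjEquivalent ρ (chi0 hm t)}.Finite := by
  classical
  by_cases hne : ∃ t₀ : DomT (E₁ n s b), ConjEquivalent ρ (chi0 hm t₀)
  · obtain ⟨t₀, ht₀⟩ := hne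
    have H : ∀ t : {t : DomT (E₁ n s b) | ConjEquivalent ρ (chi0 hm t)},
        ∀ k i, ∃ i', aV (fun x => t.1.1 (Sum.inl x)) k i = aV (fun x => t₀.1 (Sum.inl x)) k i' :=
      fun t k i => chi0_eigen hm hs t₀ t.1 (ConjEquivalent.trans' (ConjEquivalent.symm' ht₀) t.2) k i
    choose G hG using H
    have hinj : Function.Injective G := by
      intro t t' hGG
      apply Subtype.ext
      apply chi0_inj hm hs _ _ _ (ConjEquivalent.trans' (ConjEquivalent.symm' t.2) t'.2)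
      rintro ⟨k, q⟩
      have h1 := hG t k q.castSucc
      have h2 := hG t' k q.castSucc
      rw [hGG, ← h2] at h1
      rw [aV_castSucc, aV_castSucc] at h1
      exact h1
    have : Finite {t : DomT (E₁ n s b) | ConjEquivalent ρ (chi0 hm t)} :=
      Finite.of_injective G hinj
    exact Set.toFinite _
  · have : {t : DomT (E₁ n s b) | ConjEquivalent ρ (chi0 hm t)} = ∅ :=
      Set.eq_empty_of_forall_notMem fun t h => hne ⟨t, h⟩
    rw [this]
    exact Set.finite_empty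

end Vale.Agent.Lib.P002.Surf
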