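import Mathlib
import Vale.Agent.Lib.P002.Closed.Inj
import Vale.Agent.Lib.P002.Closed.Defs

set_option linter.unusedSectionVars false
set_option linter.unusedVariables false
set_option linter.unusedSimpArgs false
set_option linter.unnecessarySeqFocus false

namespace Vale.Agent.Lib.P002.Surf

open Matrix

section stab

variable {r : ℕ} (V : Submodule ℂ (Fin r → ℂ))

/-- The stabiliser of a subspace. -/
def Stab : Subgroup (GLr ℂ r) where
  carrier := {M | (∀ v ∈ V, M.1 *ᵥ v ∈ V) ∧ (∀ v ∈ V, (M⁻¹).1 *ᵥ v ∈ V)}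
  mul_mem' := by
    rintro M N ⟨h1, h2⟩ ⟨h3, h4⟩
    refine ⟨fun v hv => ?_, fun v hv => ?_⟩
    · rw [Units.val_mul, ← Matrix.mulVec_mulVec]
      exact h1 _ (h3 _ hv)
    · rw [_root_.mul_inv_rev, Units.val_mul, ← Matrix.mulVec_mulVec]
      exact h4 _ (h2 _ hv)
  one_mem' := by
    refine ⟨fun v hv => ?_, fun v hv => ?_⟩ <;> simpa using hv
  inv_mem' := by
    rintro M ⟨h1, h2⟩
    exact ⟨h2, by simpa using h1⟩

/-- Restriction to the subspace. -/
def resHom : Stab V →* Module.End ℂ V where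
  toFun M := (Matrix.mulVecLin M.1.1).restrict (fun v hv => M.2.1 v hv)
  map_one' := by
    apply LinearMap.ext
    intro v
    apply Subtype.ext
    simp
  map_mul' := by
    intro M N
    apply LinearMap.ext
    intro v
    apply Subtype.ext
    show (M.1.1 * N.1.1) *ᵥ v.1 = M.1.1 *ᵥ (N.1.1 *ᵥ v.1)
    rw [Matrix.mulVec_mulVec]

/-- The determinant on the subspace. -/
noncomputable def Dres : Stab V →* ℂˣ :=
  ((LinearMap.det : Module.End ℂ V →* ℂ).comp (resHom V)).toHomUnits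

lemma Dres_val (M : Stab V) : ((Dres V M : ℂˣ) : ℂ) = LinearMap.det (resHom V M) := rfl

lemma Dres_roots (M : Stab V) : ∃ R : Multiset ℂ, R.card = Module.finrank ℂ V ∧
    ((Dres V M : ℂˣ) : ℂ) = R.prod ∧
    ∀ μ ∈ R, ∃ v : Fin r → ℂ, v ≠ 0 ∧ M.1.1 *ᵥ v = μ • v := by
  let f := resHom V M
  have hS : f.charpoly.Splits := IsAlgClosed.splits _
  refine ⟨f.charpoly.roots, ?_, ?_, ?_⟩
  · rw [IsAlgClosed.card_roots_eq_natDegree, LinearMap.charpoly_natDegree]
  · rw [Dres_val]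
    exact Module.End.det_eq_prod_roots_charpoly_of_splits hS
  · intro μ hμ
    have h1 := (Polynomial.mem_roots f.charpoly_monic.ne_zero).1 hμ
    have h2 := (Module.End.hasEigenvalue_iff_isRoot_charpoly f μ).2 h1
    obtain ⟨v, hv⟩ := h2.exists_hasEigenvector
    refine ⟨v.1, ?_, ?_⟩
    · intro h0
      exact hv.2 (Subtype.ext h0)
    · have h3 := hv.apply_eq_smul
      have h4 := congrArg Subtype.val h3
      exact h4

/-- An invariant subspace is also invariant under the inverse. -/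
lemma mem_Stab (M : GLr ℂ r) (h : ∀ v ∈ V, M.1 *ᵥ v ∈ V) : M ∈ Stab V := by
  refine ⟨h, fun v hv => ?_⟩
  let f : Module.End ℂ V := (Matrix.mulVecLin M.1).restrict h
  have hinj : Function.Injective f := by
    intro a b hab
    apply Subtype.ext
    have h1 := congrArg Subtype.val hab
    have h2 : M.1 *ᵥ a.1 = M.1 *ᵥ b.1 := h1
    have h3 := congrArg (fun w => (M⁻¹).1 *ᵥ w) h2
    simpa [Matrix.mulVec_mulVec] using h3
  have hsurj := LinearMap.injective_iff_surjective.mp hinj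
  obtain ⟨w, hw⟩ := hsurj ⟨v, hv⟩
  have h1 : M.1 *ᵥ w.1 = v := congrArg Subtype.val hw
  have h2 : (M⁻¹).1 *ᵥ v = w.1 := by
    rw [← h1, Matrix.mulVec_mulVec]
    simp
  rw [h2]
  exact w.2

lemma Dres_comm (M N : Stab V) : Dres V (M * N * M⁻¹ * N⁻¹) = 1 := by
  simp only [map_mul, map_inv]
  generalize Dres V M = x
  generalize Dres V N = y
  calc x * y * x⁻¹ * y⁻¹ = (x * x⁻¹) * (y * y⁻¹) := by ac_rfl
    _ = 1 := by simp

/-- The word of commutators has trivial determinant. -/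
lemma prodDown_stab (x y : ℕ → GLr ℂ r) (k : ℕ) (hx : ∀ i, i < k → x i ∈ Stab V)
    (hy : ∀ i, i < k → y i ∈ Stab V) :
    ∃ h : prodDown (fun i => x i * y i * (x i)⁻¹ * (y i)⁻¹) k ∈ Stab V, Dres V ⟨_, h⟩ = 1 := by
  induction k with
  | zero => exact ⟨one_mem _, map_one _⟩
  | succ k ih =>
    obtain ⟨h1, h2⟩ := ih (fun i hi => hx i (by omega)) (fun i hi => hy i (by omega))
    have hxk := hx k (by omega)
    have hyk := hy k (by omega)
    let c : Stab V := (⟨x k, hxk⟩ * ⟨y k, hyk⟩ * (⟨x k, hxk⟩ : Stab V)⁻¹ * (⟨y k, hyk⟩ : Stab V)⁻¹)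
    refine ⟨mul_mem c.2 h1, ?_⟩
    have h3 : (⟨prodDown (fun i => x i * y i * (x i)⁻¹ * (y i)⁻¹) (k + 1), mul_mem c.2 h1⟩ : Stab V) =
        c * ⟨_, h1⟩ := rfl
    rw [h3, map_mul, h2, Dres_comm, mul_one]

/-- The eigenvalues of a triangular matrix are on the diagonal. -/
lemma eigen_UT (X : GLr ℂ r) (hX : X ∈ Bp ℂ r) (v : Fin r → ℂ) (hv : v ≠ 0) (μ : ℂ)
    (h : X.1 *ᵥ v = μ • v) : ∃ i, μ = X.1 i i := by
  classical
  have hne : (Finset.univ.filter fun i => v i ≠ 0).Nonempty := by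
    by_contra h0
    rw [Finset.not_nonempty_iff_eq_empty, Finset.filter_eq_empty_iff] at h0
    apply hv
    funext i
    simpa using h0 (Finset.mem_univ i)
  let i := (Finset.univ.filter fun i => v i ≠ 0).max' hne
  have hi : v i ≠ 0 := (Finset.mem_filter.mp (Finset.max'_mem _ hne)).2
  have hmax : ∀ j, i < j → v j = 0 := by
    intro j hj
    by_contra h0
    have h2 : j ∈ Finset.univ.filter fun i => v i ≠ 0 := Finset.mem_filter.mpr ⟨Finset.mem_univ j, h0⟩
    have := Finset.le_max' _ j h2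
    exact absurd hj (not_lt.mpr this)
  refine ⟨i, ?_⟩
  have h1 := congrFun h i
  simp only [Matrix.mulVec, dotProduct, Pi.smul_apply, smul_eq_mul] at h1
  rw [Finset.sum_eq_single i] at h1
  · exact (mul_right_cancel₀ hi h1).symm
  · intro j _ hj
    rcases lt_or_gt_of_ne hj with h2 | h2
    · rw [hX i j h2, zero_mul]
    · rw [hmax j h2, mul_zero]
  · simp

/-- The eigenvalues of a conjugate of a triangular matrix. -/
lemma eigen_conj (C Y φ : GLr ℂ r) (hY : Y ∈ Bp ℂ r) (hC : C = φ * Y * φ⁻¹) (v : Fin r → ℂ)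
    (hv : v ≠ 0) (μ : ℂ) (h : C.1 *ᵥ v = μ • v) : ∃ i, μ = Y.1 i i := by
  apply eigen_UT Y hY ((φ⁻¹).1 *ᵥ v)
  · intro h0
    apply hv
    have h1 := congrArg (fun w => φ.1 *ᵥ w) h0
    simpa [Matrix.mulVec_mulVec] using h1
  · have h1 : Y = φ⁻¹ * C * φ := by
      rw [hC]
      group
    have h2 := congrArg (fun w => (φ⁻¹).1 *ᵥ w) h
    simp only [Matrix.mulVec_smul] at h2
    rw [← h2, h1, Matrix.mulVec_mulVec]
    simp only [Units.val_mul, Matrix.mulVec_mulVec]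
    congr 1
    have h3 : φ⁻¹.1 * C.1 * φ.1 * φ⁻¹.1 = φ⁻¹.1 * C.1 * (φ.1 * φ⁻¹.1) := by
      simp only [Matrix.mul_assoc]
    rw [h3]
    simp

/-- Counting the elements of a multiset. -/
lemma count_multiset (a : Fin r → ℂ) (R : Multiset ℂ) (h : ∀ μ ∈ R, ∃ i, μ = a i) :
    ∃ m : Fin r → ℕ, ∑ i, m i = R.card ∧ R.prod = ∏ i, a i ^ m i := by
  classical
  induction R using Multiset.induction_on with
  | empty => exact ⟨0, by simp, by simp⟩
  | cons μ R ih =>
    obtain ⟨m, hm1, hm2⟩ := ih (fun ν hν => h ν (Multiset.mem_cons_of_mem hν))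
    obtain ⟨i, hi⟩ := h μ (Multiset.mem_cons_self μ R)
    refine ⟨fun j => m j + if j = i then 1 else 0, ?_, ?_⟩
    · rw [Finset.sum_add_distrib, hm1, Multiset.card_cons]
      simp
    · rw [Multiset.prod_cons, hm2, hi]
      simp only [pow_add]
      rw [Finset.prod_mul_distrib]
      rw [mul_comm]
      congr 1
      rw [Finset.prod_eq_single i]
      · simp
      · intro j _ hj
        simp [hj]
      · simp

/-- The key relation: an invariant subspace gives a multiplicative relation among eigenvalues. -/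
theorem irr_abstract (b s : ℕ) (x y : ℕ → GLr ℂ r) (C Y φ H : GLr ℂ r)
    (hH : prodDown (fun i => x i * y i * (x i)⁻¹ * (y i)⁻¹) b * (if s = 1 then C else 1) = H)
    (hHB : H ∈ Bp ℂ r) (hY : Y ∈ Bp ℂ r) (hCY : s = 1 → C = φ * Y * φ⁻¹)
    (hx : ∀ i, i < b → ∀ v ∈ V, (x i).1 *ᵥ v ∈ V) (hy : ∀ i, i < b → ∀ v ∈ V, (y i).1 *ᵥ v ∈ V)
    (hC : s = 1 → ∀ v ∈ V, C.1 *ᵥ v ∈ V) (hbot : V ≠ ⊥) (htop : V ≠ ⊤) :
    ∃ m m' : Fin r → ℕ, 0 < ∑ i, m i ∧ ∑ i, m i < r ∧ ∑ i, m' i < r ∧ (s ≠ 1 → m' = 0) ∧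
      ∏ i, (H.1 i i) ^ m i = ∏ i, (Y.1 i i) ^ m' i := by
  have hd1 : 0 < Module.finrank ℂ V := by
    have := (Submodule.one_le_finrank_iff (S := V)).mpr hbot
    omega
  have hd2 : Module.finrank ℂ V < r := by
    have := Submodule.finrank_lt htop
    rwa [Module.finrank_fin_fun] at this
  obtain ⟨hP, hDP⟩ := prodDown_stab V x y b (fun i hi => mem_Stab V _ (hx i hi))
    (fun i hi => mem_Stab V _ (hy i hi))
  by_cases h1 : s = 1
  · rw [if_pos h1] at hH
    have hCS : C ∈ Stab V := mem_Stab V _ (hC h1)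
    have hHS : H ∈ Stab V := by
      rw [← hH]
      exact mul_mem hP hCS
    have hD : Dres V ⟨H, hHS⟩ = Dres V ⟨C, hCS⟩ := by
      have h2 : (⟨H, hHS⟩ : Stab V) = ⟨_, hP⟩ * ⟨C, hCS⟩ := Subtype.ext hH.symm
      rw [h2, map_mul, hDP, one_mul]
    obtain ⟨R, hR1, hR2, hR3⟩ := Dres_roots V ⟨H, hHS⟩
    obtain ⟨R', hR1', hR2', hR3'⟩ := Dres_roots V ⟨C, hCS⟩
    obtain ⟨m, hm1, hm2⟩ := count_multiset (fun i => H.1 i i) R (fun μ hμ => by
      obtain ⟨v, hv, hv2⟩ := hR3 μ hμ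
      exact eigen_UT H hHB v hv μ hv2)
    obtain ⟨m', hm1', hm2'⟩ := count_multiset (fun i => Y.1 i i) R' (fun μ hμ => by
      obtain ⟨v, hv, hv2⟩ := hR3' μ hμ
      exact eigen_conj C Y φ hY (hCY h1) v hv μ hv2)
    refine ⟨m, m', by rw [hm1, hR1]; exact hd1, by rw [hm1, hR1]; exact hd2,
      by rw [hm1', hR1']; exact hd2, fun h2 => absurd h1 h2, ?_⟩
    rw [← hm2, ← hm2', ← hR2, ← hR2', hD]
  · rw [if_neg h1, mul_one] at hH
    subst hH
    obtain ⟨R, hR1, hR2, hR3⟩ := Dres_roots V ⟨_, hP⟩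
    obtain ⟨m, hm1, hm2⟩ := count_multiset (fun i =>
      (prodDown (fun i => x i * y i * (x i)⁻¹ * (y i)⁻¹) b).1 i i) R (fun μ hμ => by
      obtain ⟨v, hv, hv2⟩ := hR3 μ hμ
      exact eigen_UT _ hHB v hv μ hv2)
    refine ⟨m, 0, by rw [hm1, hR1]; exact hd1, by rw [hm1, hR1]; exact hd2,
      by simp; omega, fun _ => rfl, ?_⟩
    rw [← hm2, ← hR2, hDP]
    simp

end stab

section chart

variable {n s b : ℕ}

/-- The character of the eigenvalues attached to a pair of exponents. -/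
noncomputable def charV (p : Ip n s → ℂˣ) (m m' : Fin (n + 2) → ℕ) : ℂ :=
  (∏ i, ((aV p (Fin.last s) i : ℂˣ) : ℂ) ^ m i) * ∏ i, ((aV p 0 i : ℂˣ) : ℂ) ^ m' i

lemma chi0_val (hm : 4 ≤ mm s b) (t : DomT (E₁ n s b)) (x : Gens (2 * b + s) 0) :
    ((chi0 hm t x : SLr (n + 2)) : Matrix (Fin (n + 2)) (Fin (n + 2)) ℂ) =
      (GLmap (evR (E₁ n s b) t) (gensA hm x)).1 := by
  rw [← slGL_chi0]
  rfl

/-- Away from the multiplicative relations, the representation is irreducible. -/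
theorem chi0_irreducible (hm : 4 ≤ mm s b) (hs : s ≤ 1) (t : DomT (E₁ n s b))
    (h : ∀ m m' : Fin (n + 2) → ℕ, 0 < ∑ i, m i → ∑ i, m i < n + 2 → ∑ i, m' i < n + 2 →
      (s ≠ 1 → m' = 0) → charV (fun x => t.1 (Sum.inl x)) m m' ≠ 1) :
    IsIrreducibleRep (chi0 hm t) := by
  intro V hV
  by_contra hc
  rw [not_or] at hc
  let I := cInp n s b
  let e := evR (E₁ n s b) t
  let f₁ : LRing O₀ (Ic n s b) →+* ℂ := e.comp (iota j₁)
  have hI : ∀ (x : Gens (2 * b + s) 0) (M : GLr (A₁ n s b) (n + 2)), gensA hm x = M →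
      ∀ v ∈ V, (GLmap e M).1 *ᵥ v ∈ V := by
    intro x M hM v hv
    have h1 := hV x v hv
    rw [chi0_val, hM] at h1
    exact h1
  have hfa : ∀ k (hk : k ≤ s) (i : Fin (n + 2)), f₁ ((I.a k i : (LRing O₀ (Ic n s b))ˣ) : LRing O₀ (Ic n s b)) =
      ((aV (fun x => t.1 (Sum.inl x)) ⟨k, by omega⟩ i : ℂˣ) : ℂ) := fun k hk i =>
    evR_iota_a j₁ (fun _ => rfl) t k hk i
  obtain ⟨m, m', hm1, hm2, hm3, hm4, hrel⟩ := irr_abstract V b s
    (fun i => GLmap f₁ (xW I hm i)) (fun i => GLmap f₁ (yW I hm i))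
    (GLmap f₁ (sWd I hm 0)) (GLmap f₁ (sBd I hm 0).1) (GLmap f₁ ((theChain I hm).φ 1))
    (GLmap f₁ (HH I hm).1) (hH_map I hm f₁ hs) (GLmap_Bp _ (HH I hm).2) (GLmap_Bp _ (sBd I hm 0).2)
    (fun h1 => sWd_map I hm f₁ (by omega))
    (fun i hi v hv => by
      have := hI (Sum.inl ⟨b - 1 - i, by omega⟩) _ (gensC_x1 I hm (iota j₁) (iota j₂) iota_a iota_diff_unit τU κU i hi) v hv
      rwa [GLmap_comp'] at this)
    (fun i hi v hv => by
      have := hI (Sum.inr (Sum.inl ⟨b - 1 - i, by omega⟩)) _ (gensC_y1 I hm (iota j₁) (iota j₂) iota_a iota_diff_unit τU κU i hi) v hv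
      rwa [GLmap_comp'] at this)
    (fun h1 v hv => by
      have := hI (Sum.inl ⟨b, by omega⟩) _ (gensC_C I hm (iota j₁) (iota j₂) iota_a iota_diff_unit τU κU h1) v hv
      rwa [GLmap_comp'] at this)
    hc.1 hc.2
  apply h m m' hm1 hm2 hm3 hm4
  have hH : ∀ i, (GLmap f₁ (HH I hm).1).1 i i *
      ((aV (fun x => t.1 (Sum.inl x)) (Fin.last s) i : ℂˣ) : ℂ) = 1 := by
    intro i
    have h2 : (GLmap f₁ (HH I hm).1).1 i i = f₁ ((dg (HH I hm) i : (LRing O₀ (Ic n s b))ˣ) : LRing O₀ (Ic n s b)) := rfl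
    rw [h2, dg_HH_eq]
    have h3 := hfa s le_rfl i
    have h4 : (⟨s, by omega⟩ : Fin (s + 1)) = Fin.last s := rfl
    rw [h4] at h3
    rw [← h3, ← map_mul]
    simp
  have hY : ∏ i, ((GLmap f₁ (sBd I hm 0).1).1 i i) ^ m' i =
      ∏ i, ((aV (fun x => t.1 (Sum.inl x)) 0 i : ℂˣ) : ℂ) ^ m' i := by
    by_cases h1 : s = 1
    · apply Finset.prod_congr rfl
      intro i _
      congr 1
      have h2 : (GLmap f₁ (sBd I hm 0).1).1 i i = f₁ ((dg (sBd I hm 0) i : (LRing O₀ (Ic n s b))ˣ) : LRing O₀ (Ic n s b)) := rfl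
      rw [h2, dg_sBd]
      have h3 : s - 1 - 0 = 0 := by omega
      rw [h3]
      exact hfa 0 (by omega) i
    · rw [hm4 h1]
      simp
  rw [hY] at hrel
  simp only [charV]
  rw [← hrel, ← Finset.prod_mul_distrib]
  apply Finset.prod_eq_one
  intro i _
  rw [← mul_pow, mul_comm, hH, one_pow]

/-- The exponents. -/
abbrev L₂ (n : ℕ) := (Fin (n + 2) → Fin (n + 2)) × (Fin (n + 2) → Fin (n + 2))

/-- The exponents which occur. -/
def val₂ (n s : ℕ) (l : L₂ n) : Prop :=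
  0 < ∑ i, (l.1 i).val ∧ ∑ i, (l.1 i).val < n + 2 ∧ (s ≠ 1 → ∀ i, (l.2 i).val = 0)

open Classical in
/-- The multiplicative relations. -/
noncomputable def h₂ (n s b : ℕ) (l : L₂ n) (t : Ib n s b → ℂˣ) : ℂ :=
  if val₂ n s l then
    charV (fun x => t (Sum.inl x)) (fun i => (l.1 i).val) (fun i => (l.2 i).val) - 1
  else 1

lemma hL₂ (l : L₂ n) : IsLaurentFn (h₂ n s b l) := by
  classical
  unfold h₂
  by_cases h : val₂ n s l
  · simp only [h, if_true]
    let x : LRing O₀ (Ic n s b) :=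
      (∏ i, ((aUc (Fin.last s) i : (LRing O₀ (Ic n s b))ˣ) : LRing O₀ (Ic n s b)) ^ (l.1 i).val) *
        (∏ i, ((aUc 0 i : (LRing O₀ (Ic n s b))ˣ) : LRing O₀ (Ic n s b)) ^ (l.2 i).val) - 1
    have h1 := isLaurentFn_comp (Ι := Ib n s b) j₁ x
    convert h1 using 1
    funext t
    show _ = ev (fun i => t (j₁ i)) x
    simp only [x, map_sub, map_mul, map_prod, map_pow, ev_aUc, map_one]
    rfl
  · simp only [h, if_false]
    exact IsLaurentFn.const 1

/-- The polynomial removing the relations. -/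
noncomputable abbrev E₂ (n s b : ℕ) : MvPolynomial (Ib n s b) ℂ := famD (h₂ n s b) hL₂

/-- A non-constant vector of exponents differs from its last coordinate somewhere. -/
lemma exists_ne_last (m : Fin (n + 2) → ℕ) (h1 : 0 < ∑ i, m i) (h2 : ∑ i, m i < n + 2) :
    ∃ q : Fin (n + 1), m q.castSucc ≠ m (Fin.last (n + 1)) := by
  by_contra hc
  simp only [not_exists, not_not] at hc
  have h3 : ∑ i, m i = (n + 2) * m (Fin.last (n + 1)) := by
    rw [Fin.sum_univ_castSucc, Finset.sum_congr rfl fun q _ => hc q]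
    simp
    ring
  rw [h3] at h1 h2
  have h4 : 0 < m (Fin.last (n + 1)) := Nat.pos_of_mul_pos_left h1 |> fun h => by
    rcases Nat.eq_zero_or_pos (m (Fin.last (n + 1))) with h5 | h5
    · rw [h5] at h1
      simp at h1
    · exact h5
  nlinarith

/-- The unit two. -/
noncomputable def twoU : ℂˣ := Units.mk0 2 two_ne_zero

/-- A point at which the character is not trivial. -/
lemma exists_charV_ne (m m' : Fin (n + 2) → ℕ) (h1 : 0 < ∑ i, m i) (h2 : ∑ i, m i < n + 2)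
    (h3 : s ≠ 1 → m' = 0) : ∃ p : Ip n s → ℂˣ, charV p m m' ≠ 1 := by
  classical
  obtain ⟨q0, hq0⟩ := exists_ne_last m h1 h2
  let p : Ip n s → ℂˣ := fun x => if x = (Fin.last s, q0) then twoU else 1
  refine ⟨p, ?_⟩
  have hA : ∏ i, ((aV p (Fin.last s) i : ℂˣ) : ℂ) ^ m i =
      (2 : ℂ) ^ (m q0.castSucc) * ((2 : ℂ)⁻¹) ^ (m (Fin.last (n + 1))) := by
    have hc : ∀ q : Fin (n + 1), ((aV p (Fin.last s) q.castSucc : ℂˣ) : ℂ) =
        if q = q0 then 2 else 1 := by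
      intro q
      rw [aV_castSucc]
      by_cases h : q = q0
      · simp [p, h, twoU]
      · simp [p, h]
    have hprod : ∏ q : Fin (n + 1), p (Fin.last s, q) = twoU := by
      rw [Finset.prod_eq_single q0]
      · simp [p]
      · intro q _ hq
        simp [p, hq]
      · simp
    have hl : ((aV p (Fin.last s) (Fin.last (n + 1)) : ℂˣ) : ℂ) = (2 : ℂ)⁻¹ := by
      simp only [aV, snocZ, Fin.snoc_last, hprod]
      simp [twoU]
    rw [Fin.prod_univ_castSucc, hl]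
    congr 1
    rw [Finset.prod_eq_single q0]
    · rw [hc, if_pos rfl]
    · intro q _ hq
      rw [hc, if_neg hq, one_pow]
    · simp
  have hB : ∏ i, ((aV p 0 i : ℂˣ) : ℂ) ^ m' i = 1 := by
    by_cases h1' : s = 1
    · subst h1'
      have hne : (0 : Fin (1 + 1)) ≠ Fin.last 1 := by decide
      have hp0 : (fun q => p (0, q)) = fun _ => 1 := by
        funext q
        have : ((0 : Fin (1 + 1)), q) ≠ (Fin.last 1, q0) := fun h => hne (congrArg Prod.fst h)
        simp only [p, if_neg this]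
      have ha : ∀ i, aV p 0 i = 1 := by
        intro i
        induction i using Fin.lastCases with
        | last =>
          simp only [aV, snocZ, Fin.snoc_last, hp0]
          simp
        | cast q =>
          rw [aV_castSucc]
          exact congrFun hp0 q
      apply Finset.prod_eq_one
      intro i _
      rw [ha]
      simp
    · rw [h3 h1']
      simp
  simp only [charV]
  rw [hA, hB, mul_one]
  intro h4
  have h5 : (2 : ℂ) ^ (m q0.castSucc) = (2 : ℂ) ^ (m (Fin.last (n + 1))) := by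
    have h6 : (2 : ℂ) ^ (m (Fin.last (n + 1))) ≠ 0 := pow_ne_zero _ two_ne_zero
    rw [inv_pow] at h4
    exact (mul_inv_eq_one₀ h6).mp h4
  apply hq0
  have h7 : ((2 : ℕ) : ℂ) ^ (m q0.castSucc) = ((2 : ℕ) : ℂ) ^ (m (Fin.last (n + 1))) := by
    simpa using h5
  rw [← Nat.cast_pow, ← Nat.cast_pow] at h7
  exact Nat.pow_right_injective (le_refl 2) (Nat.cast_injective h7)

lemma famD_ne_zero {Ι L : Type} [Fintype Ι] [Fintype L] (h : L → (Ι → ℂˣ) → ℂ)
    (hL : ∀ l, IsLaurentFn (h l)) (hex : ∀ l, ∃ t, h l t ≠ 0) : famD h hL ≠ 0 := by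
  classical
  unfold famD
  apply mul_ne_zero
  · intro h0
    have h1 := evt_monoP (fun _ : Ι => (1 : ℂˣ))
    rw [h0] at h1
    simp [evt] at h1
  · apply Finset.prod_ne_zero_iff.mpr
    intro l _ h0
    obtain ⟨t, ht⟩ := hex l
    have h1 := fam_spec h hL l t
    rw [h0] at h1
    have h2 : evt t (0 : MvPolynomial Ι ℂ) = 0 := by simp [evt]
    rw [h2] at h1
    exact (mul_ne_zero ht (pow_ne_zero _ (prod_coords_ne t))) h1

lemma E₂_ne_zero : E₂ n s b ≠ 0 := by
  apply famD_ne_zero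
  intro l
  classical
  unfold h₂
  by_cases h : val₂ n s l
  · obtain ⟨p, hp⟩ := exists_charV_ne (s := s) (fun i => (l.1 i).val) (fun i => (l.2 i).val) h.1 h.2.1
      (fun h3 => funext (h.2.2 h3))
    refine ⟨Sum.elim p (fun _ => 1), ?_⟩
    simp only [h, if_true]
    exact sub_ne_zero.mpr hp
  · refine ⟨fun _ => 1, ?_⟩
    simp [h]

lemma E₁_ne_zero : E₁ n s b ≠ 0 := by
  intro h0
  let p : Ip n s → ℂˣ := fun x => epsU ^ ((n + 2) * 0 + x.2.val + 1)
  have h1 := mem_dom (b := b) p (fun x => ⟨0, rfl⟩) (fun _ => 1)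
  rw [h0] at h1
  simp [evt] at h1

/-- On the complement of the zeros of `E₂`, the representation is irreducible. -/
theorem chi0_irreducible' (hm : 4 ≤ mm s b) (hs : s ≤ 1) (t : DomT (E₁ n s b))
    (h : evt t.1 (E₂ n s b) ≠ 0) : IsIrreducibleRep (chi0 hm t) := by
  apply chi0_irreducible hm hs
  intro m m' h1 h2 h3 h4 h5
  have hle : ∀ i, m i < n + 2 := fun i =>
    lt_of_le_of_lt (Finset.single_le_sum (fun _ _ => Nat.zero_le _) (Finset.mem_univ i)) h2
  have hle' : ∀ i, m' i < n + 2 := fun i =>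
    lt_of_le_of_lt (Finset.single_le_sum (fun _ _ => Nat.zero_le _) (Finset.mem_univ i)) h3
  let l : L₂ n := (fun i => ⟨m i, hle i⟩, fun i => ⟨m' i, hle' i⟩)
  have hv : val₂ n s l := ⟨h1, h2, fun h6 i => congrFun (h4 h6) i⟩
  have h6 := ne_of_famD _ _ h l
  classical
  unfold h₂ at h6
  simp only [hv, if_true] at h6
  apply h6
  show charV _ m m' - 1 = 0
  rw [h5, sub_self]

end chart

end Vale.Agent.Lib.P002.Surf
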