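import Mathlib
import Vale.Agent.Lib.P002.Closed.Irr

set_option linter.unusedSectionVars false
set_option linter.unusedVariables false
set_option linter.unusedSimpArgs false
set_option linter.unnecessarySeqFocus false

namespace Vale.Agent.Lib.P002.Surf

open Matrix

variable {n s b : ℕ}

lemma card_Ib (hm : 4 ≤ mm s b) (hb : 1 ≤ b) :
    Fintype.card (Ib n s b) = (2 * (2 * b + s) - 2) * ((n + 2) ^ 2 - 1) := by
  have h1 := card_ParIdx (n := n) hm
  have h0 : Fintype.card (Ib n s b) = Fintype.card (Ip n s) + (Fintype.card (ParIdx n s b) +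
      (Fintype.card (ParIdx n s b) + Fintype.card (Iw n s))) := by
    unfold Ib Ir
    rw [Fintype.card_sum (α := Ip n s), Fintype.card_sum (α := ParIdx n s b) (β := ParIdx n s b ⊕ Iw n s),
      Fintype.card_sum (α := ParIdx n s b) (β := Iw n s)]
  rw [h0, h1]
  simp only [Ip, Iw, Fintype.card_prod, Fintype.card_fin]
  obtain ⟨C, rfl⟩ : ∃ C, b = C + 1 := ⟨b - 1, by omega⟩
  have e1 : 2 * (2 * (C + 1) + s) - 2 = 2 * (2 * C + 1 + s) := by omega
  have e2 : (n + 2) ^ 2 - 1 = (n + 1) * (n + 3) := by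
    have : (n + 2) ^ 2 = (n + 1) * (n + 3) + 1 := by ring
    omega
  have e3 : n + 2 - 1 = n + 1 := by omega
  have e4 : 2 * (C + 1) + (s + 1) - 2 = 2 * C + 1 + s := by omega
  have e5 : (2 * C + 1 + s) * (n + 2) + 2 * (C + 1) - 2 = (2 * C + 1 + s) * (n + 2) + 2 * C := by omega
  rw [e1, e2, e3, e4, e5]
  ring

/-- The main theorem for a closed surface, on the torus of the parameters of the chart. -/
theorem closed_main (hm : 4 ≤ mm s b) (hs : s ≤ 1) (hb : 1 ≤ b) :
    ∃ L : IntermediateField ℚ ℂ, FiniteDimensional ℚ L ∧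
      ∃ (D : MvPolynomial (Fin ((2 * (2 * b + s) - 2) * ((n + 2) ^ 2 - 1))) ℂ)
        (χ : (Fin ((2 * (2 * b + s) - 2) * ((n + 2) ^ 2 - 1)) → ℂˣ) → RepData (n + 2) (2 * b + s) 0),
        D ≠ 0 ∧
        (∀ p : Var (n + 2) (2 * b + s) 0, ∃ (P : MvPolynomial (Fin ((2 * (2 * b + s) - 2) * ((n + 2) ^ 2 - 1))) ℂ)
          (e : ℕ), ∀ t, MvPolynomial.eval (fun i => ((t i : ℂˣ) : ℂ)) D ≠ 0 →
            point (χ t) p * (MvPolynomial.eval (fun i => ((t i : ℂˣ) : ℂ)) D) ^ e =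
              MvPolynomial.eval (fun i => ((t i : ℂˣ) : ℂ)) P) ∧
        (∀ t, MvPolynomial.eval (fun i => ((t i : ℂˣ) : ℂ)) D ≠ 0 →
          SurfaceRelation (χ t) ∧ IsIrreducibleRep (χ t)) ∧
        (∀ ρ : RepData (n + 2) (2 * b + s) 0,
          {t | MvPolynomial.eval (fun i => ((t i : ℂˣ) : ℂ)) D ≠ 0 ∧ ConjEquivalent ρ (χ t)}.Finite) ∧
        ∀ f : MvPolynomial (Var (n + 2) (2 * b + s) 0) ℂ,
          (∀ ρ : RepData (n + 2) (2 * b + s) 0, SurfaceRelation ρ → IsOLPoint L ρ →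
            MvPolynomial.aeval (point ρ) f = 0) →
          ∀ t, MvPolynomial.eval (fun i => ((t i : ℂˣ) : ℂ)) D ≠ 0 →
            MvPolynomial.aeval (point (χ t)) f = 0 := by
  classical
  let N := (2 * (2 * b + s) - 2) * ((n + 2) ^ 2 - 1)
  let e : Ib n s b ≃ Fin N := Fintype.equivFinOfCardEq (card_Ib hm hb)
  let G : MvPolynomial (Ib n s b) ℂ := E₁ n s b * E₂ n s b
  have hev : ∀ (t : Fin N → ℂˣ) (Q : MvPolynomial (Ib n s b) ℂ),
      MvPolynomial.eval (fun i => ((t i : ℂˣ) : ℂ)) (MvPolynomial.rename e Q) =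
        evt (fun x => t (e x)) Q := by
    intro t Q
    rw [MvPolynomial.eval_rename]
    rfl
  have hG : ∀ t' : Ib n s b → ℂˣ, evt t' G = evt t' (E₁ n s b) * evt t' (E₂ n s b) := by
    intro t'
    simp only [G, evt, map_mul]
  have hG1 : ∀ t' : Ib n s b → ℂˣ, evt t' G ≠ 0 → evt t' (E₁ n s b) ≠ 0 := by
    intro t' h h0
    rw [hG, h0, zero_mul] at h
    exact h rfl
  have hG2 : ∀ t' : Ib n s b → ℂˣ, evt t' G ≠ 0 → evt t' (E₂ n s b) ≠ 0 := by
    intro t' h h0
    rw [hG, h0, mul_zero] at h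
    exact h rfl
  let χ₀ : (Fin N → ℂˣ) → RepData (n + 2) (2 * b + s) 0 := fun t =>
    if h : evt (fun x => t (e x)) (E₁ n s b) ≠ 0 then chi0 hm ⟨fun x => t (e x), h⟩ else fun _ => 1
  have hχ : ∀ (t : Fin N → ℂˣ) (h : evt (fun x => t (e x)) (E₁ n s b) ≠ 0),
      χ₀ t = chi0 hm ⟨fun x => t (e x), h⟩ := fun t h => dif_pos h
  refine ⟨L₀, finiteDimensional_L₀, MvPolynomial.rename e G, χ₀, ?_, ?_, ?_, ?_, ?_⟩
  · intro h0
    have h1 := MvPolynomial.rename_injective e e.injective (h0.trans (map_zero _).symm)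
    exact (mul_ne_zero E₁_ne_zero E₂_ne_zero) h1
  · intro p
    obtain ⟨P, k, hP⟩ := ((gensA (n := n) hm p.1).1 p.2.1 p.2.2).2
    refine ⟨MvPolynomial.rename e (P * (E₂ n s b) ^ k), k, fun t ht => ?_⟩
    rw [hev] at ht ⊢
    have h1 := hG1 _ ht
    rw [hχ t h1, hG, mul_pow]
    have h2 := hP ⟨fun x => t (e x), h1⟩
    have h3 : evt (fun x => t (e x)) (P * (E₂ n s b) ^ k) =
        evt (fun x => t (e x)) P * (evt (fun x => t (e x)) (E₂ n s b)) ^ k := by
      simp only [evt, map_mul, map_pow]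
    rw [hev, h3, ← h2, ← mul_assoc]
    rfl
  · intro t ht
    rw [hev] at ht
    have h1 := hG1 _ ht
    rw [hχ t h1]
    exact ⟨chi0_relation hm hs _, chi0_irreducible' hm hs _ (hG2 _ ht)⟩
  · intro ρ
    have hfin := chi0_fibre_finite (n := n) hm hs ρ
    -- injectivity of the coordinates
    have hinj : Function.Injective (fun t : Fin N → ℂˣ => fun x => t (e x)) := by
      intro t t' h
      funext i
      have := congrFun h (e.symm i)
      simpa using this
    apply Set.Finite.of_finite_image (f := fun t : Fin N → ℂˣ => fun x => t (e x))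
    · apply Set.Finite.subset ((hfin.image Subtype.val))
      rintro _ ⟨t, ⟨ht, hc⟩, rfl⟩
      rw [hev] at ht
      have h1 := hG1 _ ht
      refine ⟨⟨_, h1⟩, ?_, rfl⟩
      show ConjEquivalent ρ (chi0 hm _)
      rw [← hχ t h1]
      exact hc
    · exact hinj.injOn
  · intro f hf t ht
    rw [hev] at ht
    have h1 := hG1 _ ht
    rw [hχ t h1]
    exact chi0_density hm hs f hf _

end Vale.Agent.Lib.P002.Surf
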