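import Mathlib
import Vale.Agent.Lib.P002.Closed.Main

set_option linter.unusedSectionVars false
set_option linter.unusedVariables false
set_option linter.unusedSimpArgs false
set_option linter.unnecessarySeqFocus false

namespace Vale.Agent.Lib.P002.Surf

open Matrix

variable {r g s : ℕ}

lemma eigen_diagClass (d : Fin r → ℂ) (M : SLr r) (hM : InDiagClass d M) (v : Fin r → ℂ)
    (hv : v ≠ 0) (μ : ℂ) (h : (M : Matrix (Fin r) (Fin r) ℂ) *ᵥ v = μ • v) : ∃ i, μ = d i := by
  obtain ⟨P, hP⟩ := hM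
  let w := ((P⁻¹ : SLr r) : Matrix (Fin r) (Fin r) ℂ) *ᵥ v
  have hPP : (P : Matrix (Fin r) (Fin r) ℂ) * ((P⁻¹ : SLr r) : Matrix (Fin r) (Fin r) ℂ) = 1 := by
    rw [← Matrix.SpecialLinearGroup.coe_mul]
    simp
  have hPP' : ((P⁻¹ : SLr r) : Matrix (Fin r) (Fin r) ℂ) * (P : Matrix (Fin r) (Fin r) ℂ) = 1 := by
    rw [← Matrix.SpecialLinearGroup.coe_mul]
    simp
  have hw : w ≠ 0 := by
    intro h0
    apply hv
    have h1 := congrArg (fun x => (P : Matrix (Fin r) (Fin r) ℂ) *ᵥ x) h0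
    simp only [w, Matrix.mulVec_mulVec, hPP, Matrix.one_mulVec, Matrix.mulVec_zero] at h1
    exact h1
  have h2 : Matrix.diagonal d *ᵥ w = μ • w := by
    have h3 := congrArg (fun x => ((P⁻¹ : SLr r) : Matrix (Fin r) (Fin r) ℂ) *ᵥ x) h
    simp only [hP, Matrix.mulVec_mulVec, Matrix.mulVec_smul] at h3
    have h4 : ((P⁻¹ : SLr r) : Matrix (Fin r) (Fin r) ℂ) * ((P : Matrix (Fin r) (Fin r) ℂ) *
        Matrix.diagonal d * ((P⁻¹ : SLr r) : Matrix (Fin r) (Fin r) ℂ)) =
        Matrix.diagonal d * ((P⁻¹ : SLr r) : Matrix (Fin r) (Fin r) ℂ) := by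
      rw [← Matrix.mul_assoc, ← Matrix.mul_assoc, hPP', Matrix.one_mul]
    rw [h4, ← Matrix.mulVec_mulVec] at h3
    exact h3
  have hne : ∃ i, w i ≠ 0 := by
    by_contra h0
    simp only [not_exists, not_not] at h0
    exact hw (funext h0)
  obtain ⟨i, hi⟩ := hne
  refine ⟨i, ?_⟩
  have h3 := congrFun h2 i
  simp only [Matrix.mulVec_diagonal, Pi.smul_apply, smul_eq_mul] at h3
  exact (mul_right_cancel₀ hi h3).symm

/-- Under non-resonance, all the representations with the given boundary classes are irreducible. -/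
theorem irreducible_of_nonResonant (a : Fin s → Fin r → ℂ) (ha : NonResonant a)
    (ρ : RepData r g s) (hρ : ρ ∈ RelRep a) : IsIrreducibleRep ρ := by
  classical
  intro V hV
  by_contra hc
  rw [not_or] at hc
  have hd1 : 0 < Module.finrank ℂ V := by
    have := (Submodule.one_le_finrank_iff (S := V)).mpr hc.1
    omega
  have hd2 : Module.finrank ℂ V < r := by
    have := Submodule.finrank_lt hc.2
    rwa [Module.finrank_fin_fun] at this
  have hmem : ∀ x, slGL (ρ x) ∈ Stab V := fun x => mem_Stab V _ (fun v hv => hV x v hv)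
  let ρ' : Gens g s → Stab V := fun x => ⟨slGL (ρ x), hmem x⟩
  let W : Stab V := (List.ofFn fun i : Fin g => ρ' (Sum.inl i) * ρ' (Sum.inr (Sum.inl i)) *
      (ρ' (Sum.inl i))⁻¹ * (ρ' (Sum.inr (Sum.inl i)))⁻¹).prod *
    (List.ofFn fun j : Fin s => ρ' (Sum.inr (Sum.inr j))).prod
  have hW : W = 1 := by
    apply Subtype.ext
    have h1 := congrArg (slGL (r := r)) hρ.1
    rw [map_mul, map_list_prod, map_list_prod, List.map_ofFn, List.map_ofFn, map_one] at h1
    have h2 : ((W : Stab V) : GLr ℂ r) = (Stab V).subtype W := rfl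
    rw [h2]
    simp only [W]
    rw [map_mul, map_list_prod, map_list_prod, List.map_ofFn, List.map_ofFn]
    refine Eq.trans ?_ h1
    congr 3
    funext i
    simp only [Function.comp, map_mul, map_inv]
    rfl
  have hD : ∏ j : Fin s, Dres V (ρ' (Sum.inr (Sum.inr j))) = 1 := by
    have h1 := congrArg (Dres V) hW
    simp only [W] at h1
    rw [map_mul, map_list_prod, map_list_prod, List.map_ofFn, List.map_ofFn, map_one,
      List.prod_ofFn, List.prod_ofFn] at h1
    have h2 : ∀ i : Fin g, (Dres V ∘ fun i : Fin g => ρ' (Sum.inl i) * ρ' (Sum.inr (Sum.inl i)) *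
      (ρ' (Sum.inl i))⁻¹ * (ρ' (Sum.inr (Sum.inl i)))⁻¹) i = 1 := fun i => Dres_comm V _ _
    rw [Finset.prod_eq_one (fun i _ => h2 i), one_mul] at h1
    exact h1
  have H : ∀ j : Fin s, ∃ m : Fin r → ℕ, ∑ i, m i = Module.finrank ℂ V ∧
      ((Dres V (ρ' (Sum.inr (Sum.inr j))) : ℂˣ) : ℂ) = ∏ i, a j i ^ m i := by
    intro j
    obtain ⟨R, hR1, hR2, hR3⟩ := Dres_roots V (ρ' (Sum.inr (Sum.inr j)))
    obtain ⟨m, hm1, hm2⟩ := count_multiset (a j) R (fun μ hμ => by
      obtain ⟨v, hv, hv2⟩ := hR3 μ hμ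
      exact eigen_diagClass (a j) _ (hρ.2 j) v hv μ hv2)
    exact ⟨m, hm1.trans hR1, hR2.trans hm2⟩
  choose m hm1 hm2 using H
  apply ha m _ hd1 hd2 hm1
  simp only [← hm2]
  have h3 := congrArg (fun u : ℂˣ => (u : ℂ)) hD
  simpa using h3

end Vale.Agent.Lib.P002.Surf
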